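import Mathlib

open Matrix Finset

set_option linter.unusedSectionVars false

namespace Vale.Agent.P039

section Lin
variable {F : Type*} [Field F]
variable {l m n : Type*} [Fintype l] [Fintype m] [Fintype n]

lemma rank_add_ker (A : Matrix m n F) :
    A.rank + Module.finrank F (LinearMap.ker A.mulVecLin) = Fintype.card n := by
  have := LinearMap.finrank_range_add_finrank_ker A.mulVecLin
  simpa [Matrix.rank] using this

lemma card_le_rank_add_one (A : Matrix m n F) (v0 : n)
    (h : ∀ x, A *ᵥ x = 0 → x v0 = 0 → x = 0) : Fintype.card n ≤ A.rank + 1 := by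
  have h1 := rank_add_ker A
  have h2 : Module.finrank F (LinearMap.ker A.mulVecLin) ≤ 1 := by
    let f : LinearMap.ker A.mulVecLin →ₗ[F] F :=
      (LinearMap.proj v0).comp (LinearMap.ker A.mulVecLin).subtype
    have hf : Function.Injective f := by
      rw [← LinearMap.ker_eq_bot, LinearMap.ker_eq_bot']
      intro x hx
      apply Subtype.ext
      exact h x.1 (LinearMap.mem_ker.mp x.2) hx
    simpa using LinearMap.finrank_le_finrank_of_injective hf
  omega

lemma rank_add_one_le (A : Matrix m n F) (x0 : n → F) (h0 : x0 ≠ 0) (h : A *ᵥ x0 = 0) :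
    A.rank + 1 ≤ Fintype.card n := by
  have h1 := rank_add_ker A
  have h2 : 0 < Module.finrank F (LinearMap.ker A.mulVecLin) := by
    rw [Module.finrank_pos_iff_exists_ne_zero]
    exact ⟨⟨x0, by simpa using h⟩, by simpa using h0⟩
  omega

lemma card_le_rank_add_rank (A : Matrix m n F) (C : Matrix n l F)
    (h : ∀ y, A *ᵥ y = 0 → ∃ x, C *ᵥ x = y) : Fintype.card n ≤ A.rank + C.rank := by
  have h1 := rank_add_ker A
  have h2 : Module.finrank F (LinearMap.ker A.mulVecLin) ≤ C.rank := by
    apply Submodule.finrank_mono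
    intro y hy
    obtain ⟨x, hx⟩ := h y (by simpa using hy)
    exact ⟨x, by simpa using hx⟩
  omega

lemma exact_of_rank (A : Matrix m n F) (C : Matrix n l F) (hAC : A * C = 0)
    (h : Fintype.card n ≤ A.rank + C.rank) (y : n → F) (hy : A *ᵥ y = 0) : ∃ x, C *ᵥ x = y := by
  have h1 := rank_add_ker A
  have hle : LinearMap.range C.mulVecLin ≤ LinearMap.ker A.mulVecLin := by
    rintro _ ⟨x, rfl⟩
    simp [Matrix.mulVec_mulVec, hAC]
  have heq : LinearMap.range C.mulVecLin = LinearMap.ker A.mulVecLin := by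
    apply Submodule.eq_of_le_of_finrank_le hle
    have : C.rank = Module.finrank F (LinearMap.range C.mulVecLin) := rfl
    omega
  have : y ∈ LinearMap.range C.mulVecLin := by rw [heq]; simpa using hy
  obtain ⟨x, hx⟩ := this
  exact ⟨x, by simpa using hx⟩

/-- incidence matrix -/
def inc {E V : Type*} [DecidableEq V] (F : Type*) [Field F] (h t : E → V) : Matrix E V F :=
  fun e v => (if h e = v then 1 else 0) - (if t e = v then 1 else 0)

lemma inc_mulVec {E V : Type*} [Fintype V] [DecidableEq V] (h t : E → V) (g : V → F) (e : E) :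
    (inc F h t *ᵥ g) e = g (h e) - g (t e) := by
  simp [inc, Matrix.mulVec, dotProduct, sub_mul, Finset.sum_sub_distrib]

lemma incT_mulVec_eq_zero {E V : Type*} [Fintype E] [Fintype V] [DecidableEq V] (h t : E → V)
    (z : E → F) : (inc F h t)ᵀ *ᵥ z = 0 ↔ ∀ g : V → F, ∑ e, z e * (g (h e) - g (t e)) = 0 := by
  have key : ∀ g : V → F, ((inc F h t)ᵀ *ᵥ z) ⬝ᵥ g = ∑ e, z e * (g (h e) - g (t e)) := by
    intro g
    rw [Matrix.mulVec_transpose, ← Matrix.dotProduct_mulVec]
    simp [dotProduct, inc_mulVec]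
  constructor
  · intro h0 g
    rw [← key, h0, zero_dotProduct]
  · intro h0
    funext v
    have := key (Pi.single v 1)
    rw [h0] at this
    simpa using this

variable {E V X : Type*} [Fintype E] [Fintype V] [Fintype X] [DecidableEq V] [DecidableEq X]

lemma inc_orth (h t : E → V) (p q : E → X)
    (orth : ∀ (χ : X → F) (g : V → F), ∑ e, (χ (p e) - χ (q e)) * (g (h e) - g (t e)) = 0) :
    (inc F h t)ᵀ * inc F p q = 0 := by
  ext v x
  have h1 : (inc F h t)ᵀ *ᵥ (inc F p q *ᵥ Pi.single x 1) = 0 := by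
    rw [incT_mulVec_eq_zero]
    intro g
    simp only [inc_mulVec]
    exact orth _ g
  rw [Matrix.mulVec_mulVec] at h1
  have := congrFun h1 v
  simpa using this

lemma inc_rank (h t : E → V) (v0 : V)
    (conn : ∀ g : V → F, (∀ e, g (h e) = g (t e)) → g v0 = 0 → g = 0) :
    Fintype.card V ≤ (inc F h t).rank + 1 := by
  apply card_le_rank_add_one _ v0
  intro x hx h0
  apply conn x _ h0
  intro e
  have := congrFun hx e
  rw [inc_mulVec] at this
  exact sub_eq_zero.mp this

theorem euler_ineq (F : Type*) [Field F] (h t : E → V) (p q : E → X) (v0 : V) (x0 : X)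
    (orth : ∀ (χ : X → F) (g : V → F), ∑ e, (χ (p e) - χ (q e)) * (g (h e) - g (t e)) = 0)
    (connV : ∀ g : V → F, (∀ e, g (h e) = g (t e)) → g v0 = 0 → g = 0)
    (connX : ∀ g : X → F, (∀ e, g (p e) = g (q e)) → g x0 = 0 → g = 0) :
    Fintype.card V + Fintype.card X ≤ Fintype.card E + 2 := by
  have h1 := inc_rank h t v0 connV
  have h2 := inc_rank p q x0 connX
  have h3 := Matrix.rank_add_rank_le_card_of_mul_eq_zero (inc_orth h t p q orth)
  rw [Matrix.rank_transpose] at h3
  omega

theorem exact_cx (h t : E → V) (p q : E → X) (v0 : V) (x0 : X)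
    (orth : ∀ (χ : X → F) (g : V → F), ∑ e, (χ (p e) - χ (q e)) * (g (h e) - g (t e)) = 0)
    (connV : ∀ g : V → F, (∀ e, g (h e) = g (t e)) → g v0 = 0 → g = 0)
    (connX : ∀ g : X → F, (∀ e, g (p e) = g (q e)) → g x0 = 0 → g = 0)
    (hc : Fintype.card E + 2 ≤ Fintype.card V + Fintype.card X)
    (z : E → F) (hz : ∀ g : V → F, ∑ e, z e * (g (h e) - g (t e)) = 0) :
    ∃ χ : X → F, ∀ e, z e = χ (p e) - χ (q e) := by
  have h1 := inc_rank h t v0 connV
  have h2 := inc_rank p q x0 connX
  obtain ⟨χ, hχ⟩ := exact_of_rank _ _ (inc_orth h t p q orth)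
    (by rw [Matrix.rank_transpose]; omega) z ((incT_mulVec_eq_zero h t z).2 hz)
  exact ⟨χ, fun e => by rw [← inc_mulVec p q χ e, hχ]⟩

/-- cycle rank bound -/
theorem cyc_ineq (F : Type*) [Field F] (h t : E → V) (p q : E → X) [Nonempty V] [Nonempty X]
    (hex : ∀ z : E → F, (∀ g : V → F, ∑ e, z e * (g (h e) - g (t e)) = 0) →
      ∃ χ : X → F, ∀ e, z e = χ (p e) - χ (q e)) :
    Fintype.card E + 2 ≤ Fintype.card V + Fintype.card X := by
  have h1 := card_le_rank_add_rank (inc F h t)ᵀ (inc F p q) (by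
    intro y hy
    obtain ⟨χ, hχ⟩ := hex y ((incT_mulVec_eq_zero h t y).1 hy)
    exact ⟨χ, funext fun e => by rw [inc_mulVec, hχ]⟩)
  rw [Matrix.rank_transpose] at h1
  have h2 := rank_add_one_le (inc F h t) (fun _ => 1) (by
    intro h; simpa using congrFun h (Classical.arbitrary _)) (by
    funext e; simp [inc_mulVec])
  have h3 := rank_add_one_le (inc F p q) (fun _ => 1) (by
    intro h; simpa using congrFun h (Classical.arbitrary _)) (by
    funext e; simp [inc_mulVec])
  omega

/-- prescribed divergence -/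
theorem exists_flow (p q : E → X) (x0 : X)
    (connX : ∀ g : X → F, (∀ e, g (p e) = g (q e)) → g x0 = 0 → g = 0)
    (c : X → F) (hc : ∑ x, c x = 0) :
    ∃ α : E → F, ∀ χ : X → F, ∑ e, α e * (χ (p e) - χ (q e)) = ∑ x, c x * χ x := by
  have h2 := inc_rank p q x0 connX
  let A : Matrix Unit X F := Matrix.of fun _ _ => 1
  have hA : 1 ≤ A.rank := by
    have h5 : Fintype.card Unit ≤ Aᵀ.rank + 0 := by
      have := rank_add_ker Aᵀ
      have h6 : LinearMap.ker Aᵀ.mulVecLin = ⊥ := by
        rw [LinearMap.ker_eq_bot']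
        intro y hy
        have := congrFun hy x0
        funext u
        simpa [A, Matrix.vecMul, dotProduct] using this
      rw [h6] at this
      simp at this ⊢
      omega
    rw [Matrix.rank_transpose] at h5
    simpa using h5
  obtain ⟨α, hα⟩ := exact_of_rank A (inc F p q)ᵀ (by
    ext u e
    simp [A, Matrix.mul_apply, inc, Finset.sum_sub_distrib]) (by
      rw [Matrix.rank_transpose]; omega) c (by
    funext u
    simpa [A, Matrix.mulVec, dotProduct] using hc)
  refine ⟨α, fun χ => ?_⟩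
  have key : ((inc F p q)ᵀ *ᵥ α) ⬝ᵥ χ = ∑ e, α e * (χ (p e) - χ (q e)) := by
    rw [Matrix.mulVec_transpose, ← Matrix.dotProduct_mulVec]
    simp [dotProduct, inc_mulVec]
  rw [← key, hα]
  rfl

/-- nonsingular gives a transversal -/
theorem exists_equiv_of_inj {ι κ : Type*} [Fintype ι] [Fintype κ] (M : Matrix ι κ F)
    (hc : Fintype.card ι = Fintype.card κ) (h : ∀ y, M *ᵥ y = 0 → y = 0) :
    ∃ e : ι ≃ κ, ∀ i, M i (e i) ≠ 0 := by
  classical
  let e0 : ι ≃ κ := Fintype.equivOfCardEq hc
  let N : Matrix ι ι F := M.submatrix id e0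
  have hN : N.det ≠ 0 := by
    rw [Ne, ← Matrix.exists_mulVec_eq_zero_iff]
    rintro ⟨v, hv, hv0⟩
    apply hv
    have := h (v ∘ e0.symm) (by
      rw [← hv0]
      funext i
      simp only [N, Matrix.mulVec, dotProduct, Matrix.submatrix_apply, id]
      exact (Equiv.sum_comp e0 _).symm.trans (by simp))
    funext i
    simpa using congrFun this (e0 i)
  rw [← Matrix.det_transpose, Matrix.det_apply] at hN
  obtain ⟨σ, -, hσ⟩ := Finset.exists_ne_zero_of_sum_ne_zero hN
  refine ⟨σ.trans e0, fun i hi => hσ ?_⟩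
  rw [Finset.prod_eq_zero (Finset.mem_univ i)]
  · simp
  · simpa [N] using hi

end Lin

end Vale.Agent.P039
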