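import Mathlib
import Vale.Agent.P039.Lin

open Matrix Finset

set_option linter.unusedSectionVars false

namespace Vale.Agent.P039

variable {X V : Type} [Fintype X] [Fintype V] [DecidableEq X] [DecidableEq V]

def cut (τ : Fin 3 → X → X) (S : Finset X) : Finset (X × Fin 3) :=
  univ.filter fun p => p.1 ∈ S ∧ τ p.2 p.1 ∉ S

structure Gem (X V : Type) [Fintype X] [Fintype V] [DecidableEq X] [DecidableEq V] where
  τ : Fin 3 → X → X
  s : X → Bool
  vtx : X → Fin 3 → V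
  col : V → Fin 3
  τ_τ : ∀ i x, τ i (τ i x) = x
  s_τ : ∀ i x, s (τ i x) = !s x
  vtx_τ : ∀ i j x, j ≠ i → vtx (τ i x) j = vtx x j
  col_vtx : ∀ x j, col (vtx x j) = j
  surj : ∀ v, ∃ x, vtx x (col v) = v
  euler : 2 * Fintype.card V = Fintype.card X + 4
  conn3 : ∀ S : Finset X, S.Nonempty → Sᶜ.Nonempty → 3 ≤ (cut τ S).card

lemma f3_1 (i : Fin 3) : i + 1 ≠ i := by revert i; decide
lemma f3_2 (i : Fin 3) : i + 2 ≠ i := by revert i; decide
lemma f3_12 (i : Fin 3) : i + 1 ≠ i + 2 := by revert i; decide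
lemma f3_cases (i j : Fin 3) : j = i ∨ j = i + 1 ∨ j = i + 2 := by revert i j; decide
lemma f3_sum {M : Type*} [AddCommMonoid M] (f : Fin 3 → M) (i : Fin 3) :
    ∑ j, f j = f i + f (i + 1) + f (i + 2) := by
  fin_cases i <;> simp [Fin.sum_univ_three] <;> abel

namespace Gem

variable (T : Gem X V)

def flip : Gem X V :=
  { T with s := fun x => !T.s x, s_τ := fun i x => by rw [T.s_τ] }

def τe (i : Fin 3) : X ≃ X := ⟨T.τ i, T.τ i, T.τ_τ i, T.τ_τ i⟩

lemma vtx1 (i : Fin 3) (x : X) : T.vtx (T.τ i x) (i + 1) = T.vtx x (i + 1) :=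
  T.vtx_τ _ _ _ (f3_1 i)
lemma vtx2 (i : Fin 3) (x : X) : T.vtx (T.τ i x) (i + 2) = T.vtx x (i + 2) :=
  T.vtx_τ _ _ _ (f3_2 i)

lemma τ_ne (i : Fin 3) (x : X) : T.τ i x ≠ x := by
  intro h
  have := T.s_τ i x
  rw [h] at this
  cases hs : T.s x <;> simp [hs] at this

lemma vtx_inj {x y : X} {i j : Fin 3} (h : T.vtx x i = T.vtx y j) : i = j := by
  rw [← T.col_vtx x i, h, T.col_vtx]

include T in
lemma nonemptyX : Nonempty X := by
  have h := T.euler
  by_contra hX
  rw [not_nonempty_iff] at hX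
  have : Nonempty V := by
    rw [← Fintype.card_pos_iff]; omega
  obtain ⟨x, -⟩ := T.surj (Classical.arbitrary V)
  exact hX.elim x

lemma conn {α : Type*} (f : X → α) (hf : ∀ i x, f (T.τ i x) = f x) (x y : X) : f x = f y := by
  classical
  by_contra hne
  have := T.conn3 (univ.filter fun z => f z = f x) ⟨x, by simp⟩ ⟨y, by simpa using Ne.symm hne⟩
  have h0 : cut T.τ (univ.filter fun z => f z = f x) = ∅ := by
    simp [cut, hf]
  simp [h0] at this

lemma connB {α : Type*} (f : X → α) (hf : ∀ i x, T.s x = true → f (T.τ i x) = f x) (x y : X) :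
    f x = f y := by
  apply T.conn
  intro i x
  cases hs : T.s x
  · have := hf i (T.τ i x) (by rw [T.s_τ, hs]; rfl)
    rw [T.τ_τ] at this
    exact this.symm
  · exact hf i x hs

lemma connV {α : Type*} (g : V → α)
    (hg : ∀ i x, T.s x = true → g (T.vtx x (i + 2)) = g (T.vtx x (i + 1))) (v w : V) :
    g v = g w := by
  have h1 : ∀ i x, g (T.vtx x (i + 2)) = g (T.vtx x (i + 1)) := by
    intro i x
    cases hs : T.s x
    · have := hg i (T.τ i x) (by rw [T.s_τ, hs]; rfl)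
      rwa [T.vtx1, T.vtx2] at this
    · exact hg i x hs
  have h2 : ∀ x i, g (T.vtx x i) = g (T.vtx x 0) := by
    intro x i
    fin_cases i
    · rfl
    · exact h1 2 x
    · exact (h1 1 x).symm
  have h3 := T.conn (fun x => g (T.vtx x 0)) (by
    intro i x
    rw [← h2 _ (i + 1), T.vtx1, h2])
  obtain ⟨x, hx⟩ := T.surj v
  obtain ⟨y, hy⟩ := T.surj w
  rw [← hx, ← hy, h2, h2 y]
  exact h3 x y

def B : Finset X := univ.filter fun x => T.s x = true

@[simp] lemma mem_B (x : X) : x ∈ T.B ↔ T.s x = true := by simp [B]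

def sg (R : Type*) [Ring R] (x : X) : R := if T.s x then 1 else -1

lemma sg_τ (R : Type*) [Ring R] (i : Fin 3) (x : X) : T.sg R (T.τ i x) = - T.sg R x := by
  unfold sg; rw [T.s_τ]; cases T.s x <;> simp

lemma sum_B_τ {M : Type*} [AddCommMonoid M] (i : Fin 3) (f : X → M) :
    ∑ x ∈ T.B, f (T.τ i x) = ∑ x ∈ T.Bᶜ, f x := by
  apply Finset.sum_bij' (fun x _ => T.τ i x) (fun x _ => T.τ i x)
  · intro x hx; simp [T.s_τ] at hx ⊢; exact hx
  · intro x hx; simp [T.s_τ] at hx ⊢; exact hx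
  · intro x _; exact T.τ_τ i x
  · intro x _; exact T.τ_τ i x
  · intro x _; rfl

lemma div_formula {R : Type*} [CommRing R] (u : X → Fin 3 → R)
    (hu : ∀ i x, u (T.τ i x) i = u x i) (χ : X → R) :
    ∑ x ∈ T.B, ∑ i, u x i * (χ x - χ (T.τ i x)) = ∑ x, T.sg R x * χ x * ∑ i, u x i := by
  have h1 : ∑ x ∈ T.B, ∑ i, u x i * χ (T.τ i x) = ∑ x ∈ T.Bᶜ, ∑ i, u x i * χ x := by
    rw [Finset.sum_comm, Finset.sum_comm (s := T.Bᶜ)]
    refine Finset.sum_congr rfl fun i _ => ?_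
    rw [← T.sum_B_τ i]
    simp [hu]
  simp only [mul_sub, Finset.sum_sub_distrib, h1]
  rw [← Finset.sum_add_sum_compl T.B, sub_eq_add_neg, ← Finset.sum_neg_distrib]
  congr 1
  · refine Finset.sum_congr rfl fun x hx => ?_
    simp at hx
    simp [sg, hx, Finset.mul_sum, mul_comm]
  · refine Finset.sum_congr rfl fun x hx => ?_
    simp at hx
    simp [sg, hx, Finset.mul_sum, mul_comm]

lemma orth {R : Type*} [CommRing R] (χ : X → R) (g : V → R) :
    ∑ x ∈ T.B, ∑ i, (χ x - χ (T.τ i x)) * (g (T.vtx x (i + 2)) - g (T.vtx x (i + 1))) = 0 := by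
  have := T.div_formula (fun x i => g (T.vtx x (i + 2)) - g (T.vtx x (i + 1)))
    (fun i x => by rw [T.vtx1, T.vtx2]) χ
  simp only [mul_comm (χ _ - _)]
  rw [this]
  apply Finset.sum_eq_zero
  intro x _
  simp [Fin.sum_univ_three]
  ring

lemma card_X : Fintype.card X = 2 * T.B.card := by
  have := T.sum_B_τ 0 (fun _ => (1 : ℕ))
  simp only [Finset.sum_const, smul_eq_mul, mul_one] at this
  have h2 := Finset.card_add_card_compl T.B
  omega

lemma card_sym (P : Finset (X × Fin 3)) (hP : ∀ x i, (x, i) ∈ P → (T.τ i x, i) ∈ P) :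
    P.card = 2 * (P.filter fun p => T.s p.1 = true).card := by
  have h1 := Finset.card_filter_add_card_filter_not (s := P) (fun p => T.s p.1 = true)
  have h2 : (P.filter fun p => T.s p.1 = true).card =
      (P.filter fun p => ¬ T.s p.1 = true).card := by
    apply Finset.card_bij' (fun p _ => (T.τ p.2 p.1, p.2)) (fun p _ => (T.τ p.2 p.1, p.2))
    · intro p hp; simp [T.s_τ] at hp ⊢; exact ⟨hP _ _ hp.1, hp.2⟩
    · intro p hp; simp [T.s_τ] at hp ⊢; exact ⟨hP _ _ hp.1, hp.2⟩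
    · intro p _; simp [T.τ_τ]
    · intro p _; simp [T.τ_τ]
  omega

lemma sum_sg (A : Finset X) (i : Fin 3) :
    ∑ x ∈ A, T.sg ℤ x = ∑ x ∈ A.filter (fun x => T.τ i x ∉ A), T.sg ℤ x := by
  rw [← Finset.sum_filter_add_sum_filter_not A (fun x => T.τ i x ∉ A)]
  have : ∑ x ∈ A.filter (fun x => ¬ T.τ i x ∉ A), T.sg ℤ x = 0 := by
    apply Finset.sum_involution (fun x _ => T.τ i x)
    · intro x _; rw [T.sg_τ]; ring
    · intro x _ _; exact T.τ_ne i x
    · intro x hx; simp [T.τ_τ] at hx ⊢; exact ⟨hx.2, hx.1⟩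
    · intro x _; exact T.τ_τ i x
  rw [this, add_zero]

lemma cut_compl (S : Finset X) : (cut T.τ Sᶜ).card = (cut T.τ S).card := by
  apply Finset.card_bij' (fun p _ => (T.τ p.2 p.1, p.2)) (fun p _ => (T.τ p.2 p.1, p.2))
  · intro p hp; simp [cut, T.τ_τ] at hp ⊢; exact ⟨hp.2, hp.1⟩
  · intro p hp; simp [cut, T.τ_τ] at hp ⊢; exact ⟨hp.2, hp.1⟩
  · intro p _; simp [T.τ_τ]
  · intro p _; simp [T.τ_τ]

abbrev E := {x // x ∈ T.B} × Fin 3

lemma sum_E {M : Type*} [AddCommMonoid M] (f : X → Fin 3 → M) :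
    ∑ e : T.E, f e.1 e.2 = ∑ x ∈ T.B, ∑ i, f x i := by
  rw [Fintype.sum_prod_type]
  exact Finset.sum_coe_sort T.B (fun x => ∑ i, f x i)

lemma card_E : Fintype.card T.E + 2 = Fintype.card V + Fintype.card X := by
  have h1 := T.euler
  have h2 := T.card_X
  simp only [E, Fintype.card_prod, Fintype.card_coe, Fintype.card_fin]
  omega

variable {F : Type*} [Field F]

theorem exact1 (z : X → Fin 3 → F)
    (hz : ∀ g : V → F, ∑ x ∈ T.B, ∑ i, z x i * (g (T.vtx x (i + 2)) - g (T.vtx x (i + 1))) = 0) :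
    ∃ χ : X → F, ∀ x i, T.s x = true → z x i = χ x - χ (T.τ i x) := by
  obtain ⟨x0⟩ := T.nonemptyX
  obtain ⟨χ, hχ⟩ := exact_cx (E := T.E) (fun e => T.vtx e.1 (e.2 + 2)) (fun e => T.vtx e.1 (e.2 + 1))
    (fun e => e.1.1) (fun e => T.τ e.2 e.1) (T.vtx x0 0) x0
    (fun χ g => (T.sum_E fun x i =>
      (χ x - χ (T.τ i x)) * (g (T.vtx x (i + 2)) - g (T.vtx x (i + 1)))).trans (T.orth χ g))
    (fun g hg h0 => funext fun v =>
      (T.connV g (fun i x hx => hg (⟨x, by simpa using hx⟩, i)) v _).trans h0)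
    (fun g hg h0 => funext fun v =>
      (T.connB g (fun i x hx => (hg (⟨x, by simpa using hx⟩, i)).symm) v _).trans h0)
    T.card_E.le (fun e => z e.1 e.2)
    (fun g => (T.sum_E fun x i =>
      z x i * (g (T.vtx x (i + 2)) - g (T.vtx x (i + 1)))).trans (hz g))
  exact ⟨χ, fun x i hx => hχ (⟨x, by simpa using hx⟩, i)⟩

theorem exact0 (z : X → Fin 3 → F)
    (hz : ∀ χ : X → F, ∑ x ∈ T.B, ∑ i, z x i * (χ x - χ (T.τ i x)) = 0) :
    ∃ g : V → F, ∀ x i, T.s x = true → z x i = g (T.vtx x (i + 2)) - g (T.vtx x (i + 1)) := by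
  obtain ⟨x0⟩ := T.nonemptyX
  obtain ⟨χ, hχ⟩ := exact_cx (E := T.E) (fun e => e.1.1) (fun e => T.τ e.2 e.1)
    (fun e => T.vtx e.1 (e.2 + 2)) (fun e => T.vtx e.1 (e.2 + 1)) x0 (T.vtx x0 0)
    (fun g χ => (T.sum_E fun x i =>
      (g (T.vtx x (i + 2)) - g (T.vtx x (i + 1))) * (χ x - χ (T.τ i x))).trans (by
        simpa only [mul_comm] using T.orth χ g))
    (fun g hg h0 => funext fun v =>
      (T.connB g (fun i x hx => (hg (⟨x, by simpa using hx⟩, i)).symm) v _).trans h0)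
    (fun g hg h0 => funext fun v =>
      (T.connV g (fun i x hx => hg (⟨x, by simpa using hx⟩, i)) v _).trans h0)
    (by have := T.card_E; omega) (fun e => z e.1 e.2)
    (fun χ => (T.sum_E fun x i => z x i * (χ x - χ (T.τ i x))).trans (hz χ))
  exact ⟨χ, fun x i hx => hχ (⟨x, by simpa using hx⟩, i)⟩

theorem flow (c : X → F) (hc : ∑ x, c x = 0) :
    ∃ α : X → Fin 3 → F, ∀ χ : X → F,
      ∑ x ∈ T.B, ∑ i, α x i * (χ x - χ (T.τ i x)) = ∑ x, c x * χ x := by
  obtain ⟨x0⟩ := T.nonemptyX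
  obtain ⟨α, hα⟩ := exists_flow (E := T.E) (fun e => e.1.1) (fun e => T.τ e.2 e.1) x0
    (fun g hg h0 => funext fun v =>
      (T.connB g (fun i x hx => (hg (⟨x, by simpa using hx⟩, i)).symm) v _).trans h0) c hc
  refine ⟨fun x i => if h : x ∈ T.B then α (⟨x, h⟩, i) else 0, fun χ => ?_⟩
  rw [← hα, ← T.sum_E fun x i => (if h : x ∈ T.B then α (⟨x, h⟩, i) else 0) * (χ x - χ (T.τ i x))]
  refine Finset.sum_congr rfl fun e _ => ?_
  rw [dif_pos e.1.2]

lemma sum_sub (P : Finset (X × Fin 3)) {M : Type*} [AddCommMonoid M] (f : X → Fin 3 → M)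
    (hf : ∀ x i, T.s x = true → (x, i) ∉ P → f x i = 0) :
    ∑ e : {p // p ∈ P.filter fun p => T.s p.1 = true}, f e.1.1 e.1.2 = ∑ x ∈ T.B, ∑ i, f x i := by
  rw [Finset.sum_coe_sort (P.filter fun p => T.s p.1 = true) (fun p => f p.1 p.2),
    ← Finset.sum_product' T.B univ]
  apply Finset.sum_subset
  · intro p hp; simp at hp ⊢; exact hp.2
  · intro p hp hp'
    simp at hp hp'
    exact hf _ _ hp fun h => by simp [hp' h] at hp

theorem ineq (P : Finset (X × Fin 3)) (hP : ∀ x i, (x, i) ∈ P → (T.τ i x, i) ∈ P)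
    (S : Finset X) (x0 : X) (hx0 : x0 ∉ S) (hS : ∀ x ∈ S, ∀ i, (x, i) ∈ P)
    (C : Finset V) (v0 : V) (hv0 : v0 ∈ C)
    (hC : ∀ x i, (x, i) ∈ P → T.vtx x (i + 1) ∈ C ∧ T.vtx x (i + 2) ∈ C)
    (hconn : ∀ g : V → ℚ, (∀ x i, (x, i) ∈ P → g (T.vtx x (i + 2)) = g (T.vtx x (i + 1))) →
      g v0 = 0 → ∀ v ∈ C, g v = 0) :
    2 * C.card + 2 * S.card ≤ P.card + 2 := by
  let π : X → Option S := fun x => if h : x ∈ S then some ⟨x, h⟩ else none
  have key := euler_ineq (E := {p // p ∈ P.filter fun p => T.s p.1 = true}) (V := C)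
    (X := Option S) ℚ
    (fun e => ⟨T.vtx e.1.1 (e.1.2 + 2), (hC _ _ (Finset.mem_filter.1 e.2).1).2⟩)
    (fun e => ⟨T.vtx e.1.1 (e.1.2 + 1), (hC _ _ (Finset.mem_filter.1 e.2).1).1⟩)
    (fun e => π e.1.1) (fun e => π (T.τ e.1.2 e.1.1)) ⟨v0, hv0⟩ none ?_ ?_ ?_
  · have := T.card_sym P hP
    simp only [Fintype.card_coe, Fintype.card_option] at key
    omega
  · intro χ g
    let g' : V → ℚ := fun v => if h : v ∈ C then g ⟨v, h⟩ else 0
    rw [← T.orth (fun x => χ (π x)) g', ← T.sum_sub P]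
    · refine Finset.sum_congr (by ext; simp) fun e _ => ?_
      have := hC _ _ (Finset.mem_filter.1 e.2).1
      simp only [g', dif_pos this.1, dif_pos this.2]
    · intro x i _ hn
      have h1 : x ∉ S := fun h => hn (hS x h i)
      have h2 : T.τ i x ∉ S := fun h => hn (by simpa [T.τ_τ] using hP _ _ (hS _ h i))
      simp [π, h1, h2]
  · intro g hg h0
    let g' : V → ℚ := fun v => if h : v ∈ C then g ⟨v, h⟩ else 0
    have h1 := hconn g' ?_ (by simpa [g', hv0] using h0)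
    · funext v
      simpa [g', v.2] using h1 v v.2
    · have h2 : ∀ x i, T.s x = true → (x, i) ∈ P →
          g' (T.vtx x (i + 2)) = g' (T.vtx x (i + 1)) := by
        intro x i hs h
        have := hC _ _ h
        simp only [g', dif_pos this.1, dif_pos this.2]
        exact hg ⟨(x, i), by simp [h, hs]⟩
      intro x i h
      cases hs : T.s x
      · have := h2 (T.τ i x) i (by rw [T.s_τ, hs]; rfl) (hP _ _ h)
        rwa [T.vtx1, T.vtx2] at this
      · exact h2 x i hs h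
  · intro g hg h0
    have h1 := T.connB (fun x => g (π x)) (by
      intro i x hs
      by_cases h : (x, i) ∈ P
      · exact (hg ⟨(x, i), by simp [h, hs]⟩).symm
      · have h1 : x ∉ S := fun h' => h (hS x h' i)
        have h2 : T.τ i x ∉ S := fun h' => h (by simpa [T.τ_τ] using hP _ _ (hS _ h' i))
        simp [π, h1, h2])
    funext o
    rcases o with _ | ⟨x, hx⟩
    · exact h0
    · have := h1 x x0
      simp [π, hx, hx0, h0] at this
      simpa using this

end Gem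

end Vale.Agent.P039
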