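import Mathlib
import Vale.Agent.P039.Gem

open Finset

set_option linter.unusedSectionVars false

namespace Vale.Agent.P039

variable {X V : Type} [Fintype X] [Fintype V] [DecidableEq X] [DecidableEq V]

namespace Gem

variable (T : Gem X V)

def VD (D : Finset X) : Finset V := univ.filter fun v => ∃ x ∈ D, ∃ j, T.vtx x j = v

lemma mem_VD {D : Finset X} {v : V} : v ∈ T.VD D ↔ ∃ x ∈ D, ∃ j, T.vtx x j = v := by simp [VD]

lemma vtx_mem_VD {D : Finset X} {x : X} (hx : x ∈ D) (j : Fin 3) : T.vtx x j ∈ T.VD D :=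
  T.mem_VD.2 ⟨x, hx, j, rfl⟩

def BdConn (D : Finset X) : Prop :=
  ∀ g : V → ℚ, (∀ x i, x ∈ D → T.τ i x ∉ D → g (T.vtx x (i + 2)) = g (T.vtx x (i + 1))) →
    ∀ x i y j, x ∈ D → T.τ i x ∉ D → y ∈ D → T.τ j y ∉ D →
      g (T.vtx x (i + 1)) = g (T.vtx y (j + 1))

lemma BdConn.compl {T : Gem X V} {D : Finset X} (h : T.BdConn D) : T.BdConn Dᶜ := by
  intro g hg x i y j hx hi hy hj
  have := h g (fun x i hx hi => by
    have := hg (T.τ i x) i (by simpa using hi) (by simpa [T.τ_τ] using hx)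
    rwa [T.vtx1, T.vtx2] at this) (T.τ i x) i (T.τ j y) j (by simpa using hi)
    (by simpa [T.τ_τ] using hx) (by simpa using hj) (by simpa [T.τ_τ] using hy)
  rwa [T.vtx1, T.vtx1] at this

lemma three_eq {α : Type*} (f : Fin 3 → α) (h : ∀ i, f (i + 2) = f (i + 1)) (i j : Fin 3) :
    f i = f j := by
  have h0 := h 0
  have h1 := h 1
  have h2 := h 2
  fin_cases i <;> fin_cases j <;> simp_all

theorem disc_le (D : Finset X) (h1 : D.Nonempty) (h2 : Dᶜ.Nonempty) (h : T.BdConn D) :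
    2 * (T.VD D).card ≤ D.card + (cut T.τ D).card + 2 := by
  classical
  obtain ⟨x0, hx0⟩ := h2
  have h3 := T.conn3 D h1 ⟨x0, hx0⟩
  obtain ⟨⟨y, j⟩, hy⟩ : (cut T.τ D).Nonempty := by
    rw [← Finset.card_pos]; omega
  simp only [cut, mem_filter, mem_univ, true_and] at hy
  have key := T.ineq (D ×ˢ univ ∪ cut T.τ Dᶜ) ?_ D x0 (by simpa using hx0)
    (by intro x hx i; simp [hx]) (T.VD D) (T.vtx y (j + 1)) (T.vtx_mem_VD hy.1 _) ?_ ?_
  · rw [Finset.card_union_of_disjoint, T.cut_compl] at key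
    · simp at key
      omega
    · rw [Finset.disjoint_left]
      intro p hp hp'
      simp [cut] at hp hp'
      exact hp'.1 hp
  · intro x i hx
    simp [cut, T.τ_τ] at hx ⊢
    tauto
  · intro x i hx
    simp [cut] at hx
    rcases hx with hx | hx
    · exact ⟨T.vtx_mem_VD hx _, T.vtx_mem_VD hx _⟩
    · rw [← T.vtx1, ← T.vtx2]
      exact ⟨T.vtx_mem_VD hx.2 _, T.vtx_mem_VD hx.2 _⟩
  · intro g hg h0 v hv
    have hg' : ∀ x ∈ D, ∀ i, g (T.vtx x (i + 2)) = g (T.vtx x (i + 1)) :=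
      fun x hx i => hg x i (by simp [hx])
    have h4 : ∀ x ∈ D, ∀ i j, g (T.vtx x i) = g (T.vtx x j) :=
      fun x hx => three_eq (fun i => g (T.vtx x i)) (hg' x hx)
    have h5 := h g fun x i hx _ => hg' x hx i
    have h6 : ∀ i x, (x ∈ D ∧ g (T.vtx x 0) ≠ 0) → (T.τ i x ∈ D ∧ g (T.vtx (T.τ i x) 0) ≠ 0) := by
      rintro i x ⟨hx, hne⟩
      have hτ : T.τ i x ∈ D := by
        by_contra hn
        apply hne
        rw [h4 x hx 0 (i + 1), h5 x i y j hx hn hy.1 hy.2, h0]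
      refine ⟨hτ, ?_⟩
      rwa [h4 _ hτ 0 (i + 1), T.vtx1, h4 x hx _ 0]
    have h7 := T.conn (fun x => x ∈ D ∧ g (T.vtx x 0) ≠ 0) (by
      intro i x
      apply propext
      exact ⟨fun hh => by simpa [T.τ_τ] using h6 i _ hh, h6 i x⟩)
    obtain ⟨x, hx, k, rfl⟩ := T.mem_VD.1 hv
    by_contra hne
    have h8 : x0 ∈ D ∧ g (T.vtx x0 0) ≠ 0 := by
      rw [← h7 x x0]
      exact ⟨hx, by rwa [h4 x hx 0 k]⟩
    simp at hx0
    exact hx0 h8.1

theorem disc (D : Finset X) (h1 : D.Nonempty) (h2 : Dᶜ.Nonempty) (h : T.BdConn D)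
    (Γ : Finset V) (hΓ : Γ ⊆ T.VD D ∩ T.VD Dᶜ) (hc : (cut T.τ D).card ≤ Γ.card) :
    2 * (T.VD D).card = D.card + (cut T.τ D).card + 2 ∧ T.VD D ∩ T.VD Dᶜ = Γ := by
  have a1 := T.disc_le D h1 h2 h
  have a2 := T.disc_le Dᶜ h2 (by simpa using h1) h.compl
  rw [T.cut_compl] at a2
  have a3 : T.VD D ∪ T.VD Dᶜ = univ := by
    ext v
    obtain ⟨x, hx⟩ := T.surj v
    simp only [mem_union, mem_univ, iff_true]
    by_cases hD : x ∈ D
    · left; rw [← hx]; exact T.vtx_mem_VD hD _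
    · right; rw [← hx]; exact T.vtx_mem_VD (by simpa using hD) _
  have a4 := Finset.card_union_add_card_inter (T.VD D) (T.VD Dᶜ)
  rw [a3, Finset.card_univ] at a4
  have a5 := Finset.card_add_card_compl D
  have a6 := T.euler
  have a7 := Finset.card_le_card hΓ
  refine ⟨by omega, (Finset.eq_of_subset_of_card_le hΓ (by omega)).symm⟩

end Gem

end Vale.Agent.P039
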