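import Mathlib
import Vale.Agent.P039.Disc

open Finset

set_option linter.unusedSectionVars false

namespace Vale.Agent.P039

variable {X V : Type} [Fintype X] [Fintype V] [DecidableEq X] [DecidableEq V]

namespace Gem

variable (T : Gem X V)

def Irr : Prop := ∀ S : Finset X, (cut T.τ S).card = 3 → S.card = 1 ∨ Sᶜ.card = 1

def PZ (Z : Finset V) : Finset (X × Fin 3) :=
  univ.filter fun p => T.vtx p.1 (p.2 + 1) ∈ Z ∧ T.vtx p.1 (p.2 + 2) ∈ Z

lemma mem_PZ {Z : Finset V} {x : X} {i : Fin 3} :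
    (x, i) ∈ T.PZ Z ↔ T.vtx x (i + 1) ∈ Z ∧ T.vtx x (i + 2) ∈ Z := by simp [PZ]

lemma PZ_τ {Z : Finset V} {x : X} {i : Fin 3} : (T.τ i x, i) ∈ T.PZ Z ↔ (x, i) ∈ T.PZ Z := by
  rw [mem_PZ, mem_PZ, T.vtx1, T.vtx2]

def eZ (Z : Finset V) (x : X) : ℕ := ∑ i, if (x, i) ∈ T.PZ Z then 1 else 0

def aZ (Z : Finset V) (x : X) : ℕ := if ∀ j, T.vtx x j ∈ Z then 1 else 0

lemma card_filter_prod (P : Finset (X × Fin 3)) (A : Finset X) :
    (P.filter fun p => p.1 ∈ A).card = ∑ x ∈ A, ∑ i, if (x, i) ∈ P then 1 else 0 := by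
  rw [← Finset.sum_product' A univ (fun x i => if (x, i) ∈ P then 1 else 0), ← Finset.card_filter]
  congr 1
  ext p
  simp [and_comm]

theorem cyc (P : Finset (X × Fin 3)) (Z : Finset V) (hZ : Z.Nonempty)
    (hC : ∀ x i, (x, i) ∈ P → T.vtx x (i + 1) ∈ Z ∧ T.vtx x (i + 2) ∈ Z)
    {Q : Type} [Fintype Q] [DecidableEq Q] (cls : X → Q)
    (hQ : ∀ χ : X → ℚ, (∀ x i, T.s x = true → (x, i) ∉ P → χ (T.τ i x) = χ x) →
      ∃ χ' : Q → ℚ, ∀ x, χ' (cls x) = χ x) :
    (P.filter fun p => T.s p.1 = true).card + 2 ≤ Z.card + Fintype.card Q := by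
  obtain ⟨x0⟩ := T.nonemptyX
  have : Nonempty Q := ⟨cls x0⟩
  have : Nonempty Z := hZ.to_subtype
  have key := cyc_ineq (E := {p // p ∈ P.filter fun p => T.s p.1 = true}) (V := Z) (X := Q) ℚ
    (fun e => ⟨T.vtx e.1.1 (e.1.2 + 2), (hC _ _ (Finset.mem_filter.1 e.2).1).2⟩)
    (fun e => ⟨T.vtx e.1.1 (e.1.2 + 1), (hC _ _ (Finset.mem_filter.1 e.2).1).1⟩)
    (fun e => cls e.1.1) (fun e => cls (T.τ e.1.2 e.1.1)) ?_
  · simpa only [Fintype.card_coe] using key
  intro z hz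
  let z' : X → Fin 3 → ℚ := fun x i =>
    if h : (x, i) ∈ P.filter fun p => T.s p.1 = true then z ⟨(x, i), h⟩ else 0
  obtain ⟨χ, hχ⟩ := T.exact1 z' (by
    intro g
    rw [← T.sum_sub P, ← hz fun v => g v]
    · refine Finset.sum_congr (by ext; simp) fun e _ => ?_
      simp only [z', dif_pos e.2]
    · intro x i _ hn
      have : (x, i) ∉ P.filter fun p => T.s p.1 = true := fun h => hn (Finset.mem_filter.1 h).1
      simp only [z', dif_neg this, zero_mul])
  obtain ⟨χ', hχ'⟩ := hQ χ (by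
    intro x i hs hn
    have h1 := hχ x i hs
    have : (x, i) ∉ P.filter fun p => T.s p.1 = true := fun h => hn (Finset.mem_filter.1 h).1
    simp only [z', dif_neg this] at h1
    linarith)
  refine ⟨χ', fun e => ?_⟩
  rw [hχ', hχ', ← hχ _ _ (Finset.mem_filter.1 e.2).2]
  simp only [z', dif_pos e.2]

lemma region_bound (hI : T.Irr) (b0 : X) (hb0 : T.s b0 = true) (Z : Finset V)
    (hZ : ∀ j, T.vtx b0 j ∈ Z) (R : Finset X) (hR : R.Nonempty)
    (hcl : ∀ x ∈ R, ∀ i, (x, i) ∉ T.PZ Z → T.τ i x ∈ R) :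
    6 ≤ ∑ x ∈ R, if T.s x then T.eZ Z x + 3 * T.aZ Z x else 2 * T.eZ Z x := by
  by_cases hb : b0 ∈ R
  · refine le_trans ?_ (Finset.single_le_sum (fun _ _ => Nat.zero_le _) hb)
    simp [hb0, eZ, aZ, mem_PZ, hZ]
  have h3 := T.conn3 R hR ⟨b0, by simpa using hb⟩
  set p := ∑ x ∈ R, if T.s x then T.eZ Z x else 0 with hp
  set q := ∑ x ∈ R, if T.s x then 0 else T.eZ Z x with hq
  set a := ∑ x ∈ R, if T.s x then T.aZ Z x else 0 with ha
  have hsum : (∑ x ∈ R, if T.s x then T.eZ Z x + 3 * T.aZ Z x else 2 * T.eZ Z x) =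
      p + 2 * q + 3 * a := by
    rw [hp, hq, ha, Finset.mul_sum, Finset.mul_sum, ← Finset.sum_add_distrib,
      ← Finset.sum_add_distrib]
    refine Finset.sum_congr rfl fun x _ => ?_
    split_ifs <;> simp
  have hsub : cut T.τ R ⊆ (T.PZ Z).filter fun p => p.1 ∈ R := by
    intro ⟨x, i⟩ h
    simp only [cut, mem_filter, mem_univ, true_and] at h ⊢
    refine ⟨?_, h.1⟩
    by_contra hn
    exact h.2 (hcl x h.1 i hn)
  have hpq : ((T.PZ Z).filter fun p => p.1 ∈ R).card = p + q := by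
    rw [card_filter_prod, hp, hq, ← Finset.sum_add_distrib]
    refine Finset.sum_congr rfl fun x _ => ?_
    split_ifs <;> simp [eZ]
  have hle := Finset.card_le_card hsub
  have hmod : (p : ℤ) - q = 3 * ∑ x ∈ R, T.sg ℤ x := by
    have h1 : ∀ i, ∑ x ∈ R.filter (fun x => (x, i) ∉ T.PZ Z), T.sg ℤ x = 0 := by
      intro i
      rw [T.sum_sg _ i]
      apply Finset.sum_eq_zero
      intro x hx
      simp only [mem_filter, PZ_τ] at hx
      exact (hx.2 ⟨hcl x hx.1.1 i hx.1.2, hx.1.2⟩).elim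
    have h2 : ∑ i, ∑ x ∈ R.filter (fun x => (x, i) ∉ T.PZ Z), T.sg ℤ x = 0 := by simp [h1]
    simp only [Finset.sum_filter] at h2
    rw [Finset.sum_comm] at h2
    rw [hp, hq, Finset.mul_sum]
    push_cast
    rw [← Finset.sum_sub_distrib, ← sub_eq_zero, ← Finset.sum_sub_distrib, ← neg_eq_zero,
      ← Finset.sum_neg_distrib]
    refine Eq.trans ?_ h2
    refine Finset.sum_congr rfl fun x _ => ?_
    simp only [eZ, sg, Fin.sum_univ_three]
    split_ifs <;> simp
  rw [hsum]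
  by_contra hlt
  have hp3 : p = 3 := by omega
  have hq0 : q = 0 := by omega
  have ha0 : a = 0 := by omega
  rcases hI R (by omega) with h | h
  · obtain ⟨x, rfl⟩ := Finset.card_eq_one.1 h
    simp only [Finset.sum_singleton] at hp ha
    rw [hp3] at hp
    rw [ha0] at ha
    cases hs : T.s x
    · simp [hs] at hp
    · simp only [hs, if_true, eZ, aZ, Fin.sum_univ_three, mem_PZ] at hp ha
      have : ∀ j, T.vtx x j ∈ Z := by
        intro j
        by_contra hn
        fin_cases j <;> simp at hn <;> simp [hn] at hp <;> split_ifs at hp <;> omega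
      simp [this] at ha
  · obtain ⟨y, hy⟩ := Finset.card_eq_one.1 h
    have h1 : b0 = y := by
      have : b0 ∈ Rᶜ := by simpa using hb
      rw [hy] at this
      simpa using this
    subst h1
    have h2 : T.τ 0 b0 ∈ R := by
      by_contra hn
      have : T.τ 0 b0 ∈ Rᶜ := by simpa using hn
      rw [hy] at this
      exact T.τ_ne 0 b0 (by simpa using this)
    have h4 := (Finset.sum_eq_zero_iff.1 (hq.symm.trans hq0)) _ h2
    rw [T.s_τ, hb0] at h4
    simp only [Bool.not_true, Bool.false_eq_true, if_false, eZ, Finset.sum_eq_zero_iff] at h4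
    have h5 := h4 0 (Finset.mem_univ _)
    rw [if_pos (by rw [PZ_τ, mem_PZ]; exact ⟨hZ _, hZ _⟩)] at h5
    omega

theorem main_ineq (hI : T.Irr) (b0 : X) (hb0 : T.s b0 = true) (Z : Finset V)
    (hZ : ∀ j, T.vtx b0 j ∈ Z) :
    ∑ x ∈ T.B, T.eZ Z x + 4 ≤ 2 * Z.card + ∑ x ∈ T.B, T.aZ Z x := by
  classical
  let r : X → X → Prop := fun x y => ∃ i, (x, i) ∉ T.PZ Z ∧ y = T.τ i x
  let S : Setoid X := Relation.EqvGen.setoid r
  let Q := Quotient S
  let cls : X → Q := Quotient.mk S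
  have h1 := T.cyc (T.PZ Z) Z ⟨_, hZ 0⟩ (fun x i h => T.mem_PZ.1 h) cls (by
    intro χ hχ
    have hχ' : ∀ x i, (x, i) ∉ T.PZ Z → χ (T.τ i x) = χ x := by
      intro x i h
      cases hs : T.s x
      · have := hχ (T.τ i x) i (by rw [T.s_τ, hs]; rfl) (by rwa [PZ_τ])
        rw [T.τ_τ] at this
        exact this.symm
      · exact hχ x i hs h
    refine ⟨Quotient.lift χ ?_, fun x => rfl⟩
    intro x y h
    induction h with
    | rel x y h => obtain ⟨i, hi, rfl⟩ := h; exact (hχ' x i hi).symm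
    | refl x => rfl
    | symm x y _ ih => exact ih.symm
    | trans x y z _ _ ih1 ih2 => exact ih1.trans ih2)
  have h2 : ((T.PZ Z).filter fun p => T.s p.1 = true).card = ∑ x ∈ T.B, T.eZ Z x := by
    rw [eq_comm]
    unfold eZ
    rw [← card_filter_prod]
    simp
  have h3 : ∑ q : Q, 6 ≤ ∑ q : Q, ∑ x ∈ univ.filter (fun x => cls x = q),
      if T.s x then T.eZ Z x + 3 * T.aZ Z x else 2 * T.eZ Z x := by
    apply Finset.sum_le_sum
    intro q _
    apply T.region_bound hI b0 hb0 Z hZ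
    · obtain ⟨x, rfl⟩ := Quotient.exists_rep q
      exact ⟨x, by simp [cls]⟩
    · intro x hx i hi
      simp only [mem_filter, mem_univ, true_and] at hx ⊢
      rw [← hx]
      exact (Quotient.sound (Relation.EqvGen.rel _ _ ⟨i, hi, rfl⟩)).symm
  rw [Finset.sum_fiberwise, ← Finset.sum_add_sum_compl T.B] at h3
  have h4 : ∑ x ∈ T.Bᶜ, T.eZ Z x = ∑ x ∈ T.B, T.eZ Z x := by
    unfold eZ
    rw [Finset.sum_comm, Finset.sum_comm (s := T.B)]
    refine Finset.sum_congr rfl fun i _ => ?_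
    rw [← T.sum_B_τ i]
    simp only [PZ_τ]
  have h5 : (∑ x ∈ T.B, if T.s x then T.eZ Z x + 3 * T.aZ Z x else 2 * T.eZ Z x) =
      ∑ x ∈ T.B, T.eZ Z x + 3 * ∑ x ∈ T.B, T.aZ Z x := by
    rw [Finset.mul_sum, ← Finset.sum_add_distrib]
    refine Finset.sum_congr rfl fun x hx => ?_
    rw [if_pos (by simpa using hx)]
  have h6 : (∑ x ∈ T.Bᶜ, if T.s x then T.eZ Z x + 3 * T.aZ Z x else 2 * T.eZ Z x) =
      2 * ∑ x ∈ T.B, T.eZ Z x := by
    rw [← h4, Finset.mul_sum]
    refine Finset.sum_congr rfl fun x hx => ?_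
    rw [if_neg (by simpa using hx)]
  rw [h5, h6] at h3
  simp only [Finset.sum_const, Finset.card_univ, smul_eq_mul] at h3
  omega

end Gem

end Vale.Agent.P039
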