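import Mathlib
import Vale.Agent.P039.Hall

open Finset

set_option linter.unusedSectionVars false

namespace Vale.Agent.P039

variable {X V : Type} [Fintype X] [Fintype V] [DecidableEq X] [DecidableEq V]

namespace Gem

variable (T : Gem X V)

def B0 (b0 : X) : Finset X := T.B.erase b0

lemma mem_B0 {b0 x : X} : x ∈ T.B0 b0 ↔ x ≠ b0 ∧ T.s x = true := by simp [B0]

def Rt (b0 : X) : Finset V := univ.image (T.vtx b0)

lemma mem_Rt {b0 : X} {v : V} : v ∈ T.Rt b0 ↔ ∃ j, T.vtx b0 j = v := by simp [Rt]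

lemma card_Rt (b0 : X) : (T.Rt b0).card = 3 := by
  rw [Rt, Finset.card_image_of_injective _ (fun i j h => T.vtx_inj h)]
  simp

lemma card_B0 {b0 : X} (hb0 : T.s b0 = true) : (T.B0 b0).card + 3 = Fintype.card V := by
  have h1 := T.euler
  have h2 := T.card_X
  have h3 := Finset.card_erase_add_one (s := T.B) (a := b0) (by simpa using hb0)
  unfold B0
  omega

def Valid (b0 : X) (ρ : T.B0 b0 → Fin 3) : Prop :=
  Function.Injective (fun b : T.B0 b0 => T.vtx b (ρ b)) ∧ ∀ b : T.B0 b0, T.vtx b (ρ b) ∉ T.Rt b0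

lemma inj_surj {b0 : X} (hb0 : T.s b0 = true) (r : T.B0 b0 → V) (h1 : Function.Injective r)
    (h2 : ∀ b, r b ∉ T.Rt b0) (v : V) (hv : v ∉ T.Rt b0) : ∃ b, r b = v := by
  have h3 : univ.image r = (T.Rt b0)ᶜ := by
    apply Finset.eq_of_subset_of_card_le
    · intro w hw
      obtain ⟨b, -, rfl⟩ := Finset.mem_image.1 hw
      simpa using h2 b
    · rw [Finset.card_image_of_injective _ h1, Finset.card_compl, T.card_Rt]
      have := T.card_B0 hb0
      simp
      omega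
  have : v ∈ univ.image r := by rw [h3]; simpa using hv
  simpa using this

lemma Valid.surj {T : Gem X V} {b0 : X} (hb0 : T.s b0 = true) {ρ : T.B0 b0 → Fin 3}
    (h : T.Valid b0 ρ) (v : V) (hv : v ∉ T.Rt b0) : ∃ b : T.B0 b0, T.vtx b (ρ b) = v :=
  T.inj_surj hb0 _ h.1 h.2 v hv

lemma hall_H (hI : T.Irr) (b0 : X) (hb0 : T.s b0 = true) (Y : Finset V) :
    ∑ b ∈ T.B0 b0, T.aZ Y b + 2 * (Y \ T.Rt b0).card ≤
      ∑ b ∈ T.B0 b0, ∑ j, if T.vtx b j ∈ Y then 1 else 0 := by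
  have hZ : ∀ j, T.vtx b0 j ∈ Yᶜ ∪ T.Rt b0 := fun j => by simp [mem_Rt]
  have h1 := T.main_ineq hI b0 hb0 (Yᶜ ∪ T.Rt b0) hZ
  have hb : b0 ∈ T.B := by simpa using hb0
  rw [← Finset.sum_erase_add _ _ hb, ← Finset.sum_erase_add _ _ hb] at h1
  have h2 : T.eZ (Yᶜ ∪ T.Rt b0) b0 = 3 := by simp only [eZ, mem_PZ, hZ]; simp
  have h3 : T.aZ (Yᶜ ∪ T.Rt b0) b0 = 1 := by simp only [aZ, hZ]; simp
  have h4 : ∑ b ∈ T.B0 b0, (T.aZ Y b + 2 + T.aZ (Yᶜ ∪ T.Rt b0) b) ≤
      ∑ b ∈ T.B0 b0, ((∑ j, if T.vtx b j ∈ Y then 1 else 0) + T.eZ (Yᶜ ∪ T.Rt b0) b) := by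
    apply Finset.sum_le_sum
    intro b _
    simp only [aZ, eZ, mem_PZ, Fin.sum_univ_three, Fin.forall_fin_succ, mem_union, mem_compl]
    by_cases a0 : T.vtx b 0 ∈ Y <;> by_cases a1 : T.vtx b 1 ∈ Y <;> by_cases a2 : T.vtx b 2 ∈ Y <;>
      by_cases c0 : T.vtx b 0 ∈ T.Rt b0 <;> by_cases c1 : T.vtx b 1 ∈ T.Rt b0 <;>
      by_cases c2 : T.vtx b 2 ∈ T.Rt b0 <;> simp [a0, a1, a2, c0, c1, c2]
  simp only [Finset.sum_add_distrib, Finset.sum_const, smul_eq_mul] at h4
  have h5 : (Yᶜ ∪ T.Rt b0).card + (Y \ T.Rt b0).card = Fintype.card V := by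
    rw [← Finset.card_add_card_compl (Yᶜ ∪ T.Rt b0)]
    congr 2
    ext v
    simp
  have h6 := T.card_B0 hb0
  unfold B0 at *
  omega

def dg (b0 : X) (v : V) : ℕ := ∑ b ∈ T.B0 b0, ∑ j, if T.vtx b j = v then 1 else 0

lemma sum_dg (b0 : X) (Y : Finset V) :
    ∑ v ∈ Y, T.dg b0 v = ∑ b ∈ T.B0 b0, ∑ j, if T.vtx b j ∈ Y then 1 else 0 := by
  unfold dg
  rw [Finset.sum_comm]
  refine Finset.sum_congr rfl fun b _ => ?_
  rw [Finset.sum_comm]
  simp

theorem exists_omit (hI : T.Irr) (b0 : X) (hb0 : T.s b0 = true) :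
    ∃ o : T.B0 b0 → Fin 3, ∀ v, (∑ b : T.B0 b0, ∑ j,
      if T.vtx b j = v ∧ j ≠ o b then 1 else 0) = if v ∈ T.Rt b0 then 0 else 2 := by
  classical
  let c : V → ℕ := fun v => if v ∈ T.Rt b0 then 0 else 2
  let k : V → ℕ := fun v => T.dg b0 v - c v
  have hc : ∀ Y : Finset V, ∑ v ∈ Y, c v = 2 * (Y \ T.Rt b0).card := by
    intro Y
    simp only [c]
    rw [Finset.sum_ite]
    simp [Finset.sdiff_eq_filter, mul_comm]
  have hk : ∀ v, k v + c v = T.dg b0 v := by
    intro v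
    have h1 := T.hall_H hI b0 hb0 {v}
    rw [← hc, ← T.sum_dg] at h1
    simp only [Finset.sum_singleton] at h1
    simp only [k]
    omega
  have hk2 : ∀ Y : Finset V, ∑ b ∈ T.B0 b0, T.aZ Y b ≤ ∑ v ∈ Y, k v := by
    intro Y
    have h1 := T.hall_H hI b0 hb0 Y
    rw [← hc, ← T.sum_dg] at h1
    simp only [← hk, Finset.sum_add_distrib] at h1
    omega
  let t : T.B0 b0 → Finset (Σ _ : V, ℕ) := fun b =>
    (univ.image (T.vtx b)).sigma fun v => Finset.range (k v)
  obtain ⟨f, hf, hft⟩ := (Finset.all_card_le_biUnion_card_iff_exists_injective t).1 (by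
    intro A
    let Y : Finset V := A.biUnion fun b => univ.image (T.vtx b)
    have h1 : A.biUnion t = Y.sigma fun v => Finset.range (k v) := by
      ext ⟨v, n⟩
      simp only [t, Y, mem_biUnion, mem_sigma]
      constructor
      · rintro ⟨b, hb, h1, h2⟩; exact ⟨⟨b, hb, h1⟩, h2⟩
      · rintro ⟨⟨b, hb, h1⟩, h2⟩; exact ⟨b, hb, h1, h2⟩
    rw [h1, Finset.card_sigma]
    simp only [Finset.card_range]
    refine le_trans ?_ (hk2 Y)
    rw [← Finset.sum_coe_sort, Finset.card_eq_sum_ones]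
    refine le_trans (le_of_eq ?_) (Finset.sum_le_sum_of_subset (Finset.subset_univ A))
    refine Finset.sum_congr rfl fun b hb => ?_
    rw [aZ, if_pos]
    intro j
    simp only [Y, mem_biUnion]
    exact ⟨b, hb, by simp⟩)
  have hf1 : ∀ b : T.B0 b0, T.vtx b (T.col (f b).1) = (f b).1 := by
    intro b
    have := hft b
    simp only [t, mem_sigma, mem_image] at this
    obtain ⟨⟨j, -, hj⟩, -⟩ := this
    rw [← hj, T.col_vtx]
  let cnt : V → ℕ := fun v => (univ.filter fun b => (f b).1 = v).card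
  have hcnt : ∀ v, cnt v ≤ k v := by
    intro v
    rw [← Finset.card_range (k v)]
    apply Finset.card_le_card_of_injOn (fun b => (f b).2)
    · intro b hb
      have := hft b
      simp only [t, mem_sigma] at this
      simp only [coe_filter, mem_univ, true_and, Set.mem_ofPred_eq] at hb
      rw [← hb]
      exact this.2
    · intro b hb b' hb' h
      simp only [coe_filter, mem_univ, true_and, Set.mem_ofPred_eq] at hb hb'
      apply hf
      exact Sigma.ext (hb.trans hb'.symm) (heq_of_eq h)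
  have hs1 : ∑ v, cnt v = (T.B0 b0).card := by
    simp only [cnt]
    rw [← Finset.card_eq_sum_card_fiberwise (f := fun b => (f b).1) (by simp)]
    simp
  have hs2 : ∑ v, k v = (T.B0 b0).card := by
    have h1 := T.sum_dg b0 univ
    simp only [← hk, Finset.sum_add_distrib, hc] at h1
    have h2 := T.card_B0 hb0
    rw [Finset.card_sdiff_of_subset (Finset.subset_univ _), T.card_Rt] at h1
    simp at h1
    omega
  have heq := (Finset.sum_eq_sum_iff_of_le (s := univ) fun v _ => hcnt v).1 (hs1.trans hs2.symm)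
  refine ⟨fun b => T.col (f b).1, fun v => ?_⟩
  have h1 := hk v
  rw [← heq v (Finset.mem_univ _)] at h1
  have h2 : T.dg b0 v = cnt v + ∑ b : T.B0 b0, ∑ j,
      if T.vtx b j = v ∧ j ≠ T.col (f b).1 then 1 else 0 := by
    simp only [dg, cnt]
    rw [← Finset.sum_coe_sort, Finset.card_filter, ← Finset.sum_add_distrib]
    refine Finset.sum_congr rfl fun b _ => ?_
    rw [f3_sum _ (T.col (f b).1), f3_sum _ (T.col (f b).1), hf1]
    simp [add_assoc]
  show _ = c v
  beta_reduce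
  omega

theorem exists_paired (hI : T.Irr) (b0 : X) (hb0 : T.s b0 = true) :
    ∃ ρ σ : T.B0 b0 → Fin 3, T.Valid b0 ρ ∧ T.Valid b0 σ ∧ ∀ b, ρ b ≠ σ b := by
  classical
  obtain ⟨o, ho⟩ := T.exists_omit hI b0 hb0
  let cov : V → Finset (T.B0 b0 × Fin 3) := fun v =>
    univ.filter fun p => T.vtx p.1 p.2 = v ∧ p.2 ≠ o p.1
  have hcov : ∀ v, (cov v).card = if v ∈ T.Rt b0 then 0 else 2 := by
    intro v
    rw [← ho, Finset.card_filter, Fintype.sum_prod_type]
  have hcov2 : ∀ v, (cov v).card ≤ 2 := by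
    intro v; rw [hcov]; split_ifs <;> omega
  have hnr : ∀ (b : T.B0 b0) j, j ≠ o b → T.vtx b j ∉ T.Rt b0 := by
    intro b j hj hn
    have h1 := hcov (T.vtx b j)
    rw [if_pos hn, Finset.card_eq_zero] at h1
    have : (b, j) ∈ cov (T.vtx b j) := by simp [cov, hj]
    simp [h1] at this
  let t : T.B0 b0 → Finset V := fun b => {T.vtx b (o b + 1), T.vtx b (o b + 2)}
  obtain ⟨r, hr, hrt⟩ := (Finset.all_card_le_biUnion_card_iff_exists_injective t).1 (by
    intro A
    have h1 : (A.biUnion fun b => {(b, o b + 1), (b, o b + 2)}) ⊆ (A.biUnion t).biUnion cov := by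
      intro p hp
      simp only [mem_biUnion, mem_insert, mem_singleton, t, cov, mem_filter, mem_univ,
        true_and] at hp ⊢
      obtain ⟨b, hb, rfl | rfl⟩ := hp
      · exact ⟨_, ⟨b, hb, Or.inl rfl⟩, rfl, f3_1 _⟩
      · exact ⟨_, ⟨b, hb, Or.inr rfl⟩, rfl, f3_2 _⟩
    have h2 := Finset.card_le_card h1
    rw [Finset.card_biUnion] at h2
    · have h3 := Finset.card_biUnion_le_card_mul (A.biUnion t) cov 2 fun v _ => hcov2 v
      have h4 : ∀ b : T.B0 b0, ({(b, o b + 1), (b, o b + 2)} : Finset _).card = 2 := by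
        intro b
        rw [Finset.card_pair]
        simp [f3_12]
      simp only [h4, Finset.sum_const, smul_eq_mul] at h2
      omega
    · intro b _ b' _ hne
      simp [Function.onFun, hne, hne.symm])
  have hr1 : ∀ b : T.B0 b0, T.vtx b (T.col (r b)) = r b ∧ T.col (r b) ≠ o b := by
    intro b
    have := hrt b
    simp only [t, mem_insert, mem_singleton] at this
    rcases this with h | h <;> rw [h, T.col_vtx]
    · exact ⟨rfl, f3_1 _⟩
    · exact ⟨rfl, f3_2 _⟩
  let σ : T.B0 b0 → Fin 3 := fun b => - (o b + T.col (r b))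
  have h3 : ∀ a b : Fin 3, b ≠ a → -(a + b) ≠ a ∧ b ≠ -(a + b) := by decide
  have hσ : ∀ b, σ b ≠ o b ∧ T.col (r b) ≠ σ b := fun b => h3 _ _ (hr1 b).2
  refine ⟨fun b => T.col (r b), σ, ⟨?_, ?_⟩, ⟨?_, ?_⟩, fun b => (hσ b).2⟩
  · simpa only [fun b => (hr1 b).1] using hr
  · exact fun b => hnr b _ (hr1 b).2
  · intro b b' h
    by_contra hne
    obtain ⟨b'', hb''⟩ := T.inj_surj hb0 r hr (fun b => by
      rw [← (hr1 b).1]; exact hnr b _ (hr1 b).2) _ (hnr b _ (hσ b).1)
    have h4 := hcov2 (T.vtx b (σ b))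
    have h5 : 2 < (cov (T.vtx b (σ b))).card := by
      rw [Finset.two_lt_card_iff]
      refine ⟨(b, σ b), (b', σ b'), (b'', T.col (r b'')), by simp [cov, (hσ b).1], ?_, ?_, ?_, ?_, ?_⟩
      · simp only [cov, mem_filter, mem_univ, true_and]
        exact ⟨h.symm, (hσ b').1⟩
      · simp only [cov, mem_filter, mem_univ, true_and]
        exact ⟨(hr1 b'').1.trans hb'', (hr1 b'').2⟩
      · intro h; exact hne (congrArg Prod.fst h)
      · intro h
        obtain ⟨rfl, h⟩ := Prod.mk.inj h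
        exact (hσ b).2 h.symm
      · intro h
        obtain ⟨rfl, h⟩ := Prod.mk.inj h
        exact (hσ b').2 h.symm
    omega
  · exact fun b => hnr b _ (hσ b).1

end Gem

end Vale.Agent.P039
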