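import Mathlib
import Vale.Agent.P039.Pair

open Finset

set_option linter.unusedSectionVars false

namespace Vale.Agent.P039

variable {X V : Type} [Fintype X] [Fintype V] [DecidableEq X] [DecidableEq V]

def dl (i j : Fin 3) : ℤ := if j = i + 1 then 1 else -1

def th (i j : Fin 3) : Fin 3 := -(i + j)

lemma dl_cases {i j : Fin 3} (h : i ≠ j) :
    (i = th i j + 1 ∧ j = th i j + 2 ∧ dl i j = 1) ∨ (i = th i j + 2 ∧ j = th i j + 1 ∧ dl i j = -1) := by
  revert i j; decide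

lemma dl_mul {R : Type*} [CommRing R] {i j : Fin 3} (h : i ≠ j) (f : Fin 3 → R) :
    (dl i j : R) * (f (th i j + 2) - f (th i j + 1)) = f j - f i := by
  rcases dl_cases h with ⟨h1, h2, h3⟩ | ⟨h1, h2, h3⟩ <;> rw [h3, ← h1, ← h2] <;> simp

lemma dl_pm (i j : Fin 3) : dl i j = 1 ∨ dl i j = -1 := by unfold dl; split_ifs <;> simp

namespace Gem

variable (T : Gem X V)

lemma sum_supp {M : Type*} [AddCommMonoid M] {b0 : X} (q : Finset (T.B0 b0))
    (o : T.B0 b0 → Fin 3) (y : X → Fin 3 → M)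
    (hy : ∀ x i, T.s x = true → (¬ ∃ b ∈ q, b.1 = x ∧ o b = i) → y x i = 0) :
    ∑ x ∈ T.B, ∑ i, y x i = ∑ b ∈ q, y b (o b) := by
  rw [← Finset.sum_product' T.B univ, eq_comm]
  apply Finset.sum_of_injOn (fun b : T.B0 b0 => (b.1, o b))
  · intro b _ b' _ h
    exact Subtype.ext (congrArg Prod.fst h)
  · intro b _
    simpa using (T.mem_B0.1 b.2).2
  · intro p hp hn
    apply hy _ _ (by simpa using hp)
    rintro ⟨b, hb, h1, h2⟩
    exact hn ⟨b, hb, Prod.ext h1 h2⟩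
  · intro b _; rfl

theorem cycle_lemma {b0 : X} (hb0 : T.s b0 = true) {ρ σ : T.B0 b0 → Fin 3}
    (hρ : T.Valid b0 ρ) (hσ : T.Valid b0 σ) (hne : ∀ b, ρ b ≠ σ b) (π : Equiv.Perm (T.B0 b0))
    (hπ : ∀ b, T.vtx (π b) (σ (π b)) = T.vtx b (ρ b)) (q : Finset (T.B0 b0)) (b1 : T.B0 b0)
    (hb1 : b1 ∈ q) (hq : ∀ b, π b ∈ q ↔ b ∈ q)
    (hmin : ∀ η : T.B0 b0 → ℚ, (∀ b ∈ q, η (π b) = η b) → ∀ b ∈ q, η b = η b1) :
    ∃ κ : ℤ, (κ = 1 ∨ κ = -1) ∧ ∑ b ∈ q, dl (ρ b) (σ b) = 3 * κ ∧ ∃ D : Finset X, b0 ∉ D ∧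
      1 ≤ (D \ T.B).card ∧ ∀ u : X → Fin 3 → ℝ,
        ∑ x ∈ T.B, ∑ i, u x i * ((if x ∈ D then 1 else 0) - (if T.τ i x ∈ D then 1 else 0)) =
          - κ * ∑ b ∈ q, dl (ρ b) (σ b) * u b (th (ρ b) (σ b)) := by
  classical
  let o : T.B0 b0 → Fin 3 := fun b => th (ρ b) (σ b)
  let r : T.B0 b0 → V := fun b => T.vtx b (ρ b)
  let s : T.B0 b0 → V := fun b => T.vtx b (σ b)
  have hπ' : ∀ b, s (π b) = r b := hπ
  have hsum : ∀ {M : Type} [AddCommMonoid M] (f : T.B0 b0 → M),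
      ∑ b ∈ q, f (π b) = ∑ b ∈ q, f b := by
    intro M _ f
    exact Finset.sum_equiv π (fun b => (hq b).symm) fun b _ => rfl
  obtain ⟨χ, hχ⟩ := T.exact1 (F := ZMod 2)
    (fun x i => if ∃ b ∈ q, b.1 = x ∧ o b = i then 1 else 0) (by
    intro g
    rw [T.sum_supp q o _ (fun x i _ h => by rw [if_neg h, zero_mul])]
    have h1 : ∀ b ∈ q, (if ∃ b' ∈ q, b'.1 = b.1 ∧ o b' = o b then (1 : ZMod 2) else 0) *
        (g (T.vtx b (o b + 2)) - g (T.vtx b (o b + 1))) = g (s b) - g (r b) := by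
      intro b hb
      rw [if_pos ⟨b, hb, rfl, rfl⟩, ← dl_mul (hne b) fun j => g (T.vtx b j)]
      congr 1
      rcases dl_pm (ρ b) (σ b) with h | h <;> rw [h] <;> rfl
    rw [Finset.sum_congr rfl h1, Finset.sum_sub_distrib, ← hsum fun b => g (s b)]
    simp only [hπ', sub_self])
  let D : Finset X := univ.filter fun x => χ x ≠ χ b0
  have hz2 : ∀ a b c : ZMod 2, (0 = a - b → (a ≠ c ↔ b ≠ c)) ∧ (1 = a - b → (a ≠ c ↔ ¬ b ≠ c)) := by
    decide
  have hD0 : ∀ x i, T.s x = true → (¬ ∃ b ∈ q, b.1 = x ∧ o b = i) → (x ∈ D ↔ T.τ i x ∈ D) := by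
    intro x i hs h
    have := hχ x i hs
    rw [if_neg h] at this
    simpa only [D, mem_filter, mem_univ, true_and] using (hz2 _ _ _).1 this
  have hD1 : ∀ b ∈ q, (b.1 ∈ D ↔ T.τ (o b) b ∉ D) := by
    intro b hb
    have := hχ b (o b) (T.mem_B0.1 b.2).2
    rw [if_pos ⟨b, hb, rfl, rfl⟩] at this
    simpa only [D, mem_filter, mem_univ, true_and] using (hz2 _ _ _).2 this
  have hb0D : b0 ∉ D := by simp [D]
  clear_value D
  clear hχ χ hz2
  have hsupp : ∀ {R : Type} [CommRing R] (u : X → Fin 3 → R),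
      ∑ x ∈ T.B, ∑ i, u x i * ((if x ∈ D then 1 else 0) - (if T.τ i x ∈ D then 1 else 0)) =
      ∑ b ∈ q, u b (o b) * (if b.1 ∈ D then 1 else -1) := by
    intro R _ u
    rw [T.sum_supp q o]
    · refine Finset.sum_congr rfl fun b hb => ?_
      have := hD1 b hb
      by_cases h : b.1 ∈ D
      · simp [h, this.1 h]
      · simp [h, not_not.1 (fun h' => h (this.2 h'))]
    · intro x i hs h
      simp [hD0 x i hs h]
  let η : T.B0 b0 → ℤ := fun b => dl (ρ b) (σ b) * (if b.1 ∈ D then 1 else -1)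
  have hη : ∀ b ∈ q, η (π b) = η b := by
    intro b hb
    let g : V → ℤ := fun v => if v = r b then 1 else 0
    have h1 := T.orth (fun x => if x ∈ D then (1 : ℤ) else 0) g
    simp only [mul_comm (ite _ _ _ - _)] at h1
    rw [hsupp] at h1
    have h2 : ∀ b' ∈ q, (g (T.vtx b' (o b' + 2)) - g (T.vtx b' (o b' + 1))) *
        (if b'.1 ∈ D then 1 else -1) = η b' * g (s b') - η b' * g (r b') := by
      intro b' _
      have := dl_mul (hne b') fun j => g (T.vtx b' j)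
      simp only [Int.cast_id] at this
      rw [← mul_sub, ← this]
      simp only [η, o]
      rcases dl_pm (ρ b') (σ b') with h | h <;> rw [h] <;> ring
    rw [Finset.sum_congr rfl h2, Finset.sum_sub_distrib, ← hsum fun b' => η b' * g (s b')] at h1
    have h3 : ∀ b', r b' = r b ↔ b' = b := fun b' => hρ.1.eq_iff
    simp only [hπ', g, h3, mul_ite, mul_one, mul_zero, Finset.sum_ite_eq', if_pos hb] at h1
    linarith
  have hη2 : ∀ b ∈ q, η b = η b1 := by
    intro b hb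
    have := hmin (fun b => (η b : ℚ)) (fun b hb => by rw [hη b hb]) b hb
    exact_mod_cast this
  have hη1 : η b1 = 1 ∨ η b1 = -1 := by
    simp only [η]
    rcases dl_pm (ρ b1) (σ b1) with h | h <;> rw [h] <;> split_ifs <;> simp
  have hη3 : ∀ b ∈ q, (if b.1 ∈ D then 1 else -1 : ℤ) = η b1 * dl (ρ b) (σ b) := by
    intro b hb
    rw [← hη2 b hb]
    simp only [η]
    rcases dl_pm (ρ b) (σ b) with h | h <;> rw [h] <;> split_ifs <;> simp
  -- the disc count
  let bd : T.B0 b0 → X × Fin 3 := fun b => if b.1 ∈ D then (b.1, o b) else (T.τ (o b) b, o b)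
  have hcut : cut T.τ D = q.image bd := by
    ext ⟨x, i⟩
    simp only [cut, mem_filter, mem_univ, true_and, mem_image]
    constructor
    · rintro ⟨h1, h2⟩
      cases hs : T.s x
      · have := hD0 (T.τ i x) i (by rw [T.s_τ, hs]; rfl)
        rw [T.τ_τ] at this
        obtain ⟨b, hb, h3, h4⟩ := not_not.1 fun h => h2 ((this h).2 h1)
        refine ⟨b, hb, ?_⟩
        simp only [bd, h3, h4, if_neg h2, T.τ_τ]
      · obtain ⟨b, hb, h3, h4⟩ := not_not.1 fun h => h2 ((hD0 x i hs h).1 h1)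
        refine ⟨b, hb, ?_⟩
        simp only [bd, h3, h4, if_pos h1]
    · rintro ⟨b, hb, h⟩
      have := hD1 b hb
      simp only [bd] at h
      split_ifs at h with h1
      · obtain ⟨rfl, rfl⟩ := Prod.mk.inj h
        exact ⟨h1, this.1 h1⟩
      · obtain ⟨rfl, rfl⟩ := Prod.mk.inj h
        rw [T.τ_τ]
        exact ⟨not_not.1 (fun h' => h1 (this.2 h')), h1⟩
  have hbd : ∀ b, (bd b).2 = o b ∧ (∀ j, j ≠ o b → T.vtx (bd b).1 j = T.vtx b j) ∧
      (if T.s (bd b).1 then (bd b).1 else T.τ (bd b).2 (bd b).1) = b := by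
    intro b
    have hs := (T.mem_B0.1 b.2).2
    simp only [bd]
    by_cases h1 : b.1 ∈ D
    · simp [h1, hs]
    · simp only [if_neg h1, T.s_τ, hs, T.τ_τ]
      exact ⟨trivial, fun j hj => T.vtx_τ _ _ _ hj, by simp⟩
  have hcard : (cut T.τ D).card = q.card := by
    rw [hcut, Finset.card_image_of_injective]
    intro b b' h
    apply Subtype.ext
    rw [← (hbd b).2.2, ← (hbd b').2.2, h]
  have hmem : ∀ b ∈ q, (bd b).1 ∈ D ∧ T.τ (o b) (bd b).1 ∉ D := by
    intro b hb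
    have : bd b ∈ cut T.τ D := by rw [hcut]; exact Finset.mem_image_of_mem _ hb
    simpa only [cut, mem_filter, mem_univ, true_and, (hbd b).1] using this
  have hρo : ∀ b, ρ b ≠ o b := by
    intro b
    have : ∀ i j : Fin 3, i ≠ j → i ≠ th i j := by decide
    exact this _ _ (hne b)
  have hΓ : q.image r ⊆ T.VD D ∩ T.VD Dᶜ := by
    intro v hv
    obtain ⟨b, hb, rfl⟩ := Finset.mem_image.1 hv
    have h1 := (hbd b).2.1 _ (hρo b)
    rw [Finset.mem_inter]
    constructor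
    · exact T.mem_VD.2 ⟨_, (hmem b hb).1, _, h1⟩
    · exact T.mem_VD.2 ⟨_, by simpa using (hmem b hb).2, ρ b, by rw [T.vtx_τ _ _ _ (hρo b), h1]⟩
  have hcΓ : (q.image r).card = q.card := Finset.card_image_of_injective _ hρ.1
  obtain ⟨d1, d2⟩ := T.disc D ⟨_, (hmem b1 hb1).1⟩ ⟨b0, by simpa using hb0D⟩ (by
    intro g hg
    have h1 : ∀ b ∈ q, g (T.vtx b (o b + 2)) = g (T.vtx b (o b + 1)) := by
      intro b hb
      have := hg _ _ (hmem b hb).1 (hmem b hb).2
      rwa [(hbd b).2.1 _ (f3_1 _), (hbd b).2.1 _ (f3_2 _)] at this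
    have h2 : ∀ b ∈ q, g (s b) = g (r b) := by
      intro b hb
      have := dl_mul (hne b) fun j => g (T.vtx b j)
      rw [h1 b hb, sub_self, mul_zero] at this
      exact sub_eq_zero.1 this.symm
    have h3 := hmin (fun b => g (r b)) fun b hb => by
      rw [← h2 _ ((hq b).2 hb), hπ']
    have h4 : ∀ x i, x ∈ D → T.τ i x ∉ D → g (T.vtx x (i + 1)) = g (r b1) := by
      intro x i hx hi
      have : (x, i) ∈ q.image bd := by rw [← hcut]; simp [cut, hx, hi]
      obtain ⟨b, hb, h⟩ := Finset.mem_image.1 this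
      have h5 := hbd b
      rw [h] at h5
      obtain ⟨h5, h6, -⟩ := h5
      simp only at h5 h6
      subst h5
      rw [h6 _ (f3_1 _), ← h3 b hb]
      rcases dl_cases (hne b) with ⟨h7, -, -⟩ | ⟨-, h7, -⟩
      · exact congrArg (fun j => g (T.vtx b j)) h7.symm
      · rw [← h2 b hb]
        exact congrArg (fun j => g (T.vtx b j)) h7.symm
    intro x i y j hx hi hy hj
    rw [h4 x i hx hi, h4 y j hy hj]) (q.image r) hΓ (by omega)
  let A : Finset (T.B0 b0) := univ.filter fun b => b.1 ∈ D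
  have hA1 : (A \ q).card = (T.VD D \ q.image r).card := by
    apply Finset.card_nbij r
    · intro b hb
      simp only [A, coe_sdiff, coe_filter, mem_univ, true_and, Set.mem_sdiff, Set.mem_ofPred_eq,
        mem_coe] at hb ⊢
      refine ⟨T.vtx_mem_VD hb.1 _, fun h => ?_⟩
      obtain ⟨b', hb', h'⟩ := Finset.mem_image.1 h
      rw [hρ.1 h'] at hb'
      exact hb.2 hb'
    · exact hρ.1.injOn
    · intro v hv
      simp only [coe_sdiff, Set.mem_sdiff, mem_coe] at hv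
      have h1 : v ∉ T.VD Dᶜ := fun h => hv.2 (by rw [← d2]; exact Finset.mem_inter.2 ⟨hv.1, h⟩)
      obtain ⟨b, hb⟩ := hρ.surj hb0 v (fun h => by
        obtain ⟨j, hj⟩ := T.mem_Rt.1 h
        exact h1 (T.mem_VD.2 ⟨b0, by simpa using hb0D, j, hj⟩))
      refine ⟨b, ?_, hb⟩
      simp only [A, coe_sdiff, coe_filter, mem_univ, true_and, Set.mem_sdiff, Set.mem_ofPred_eq,
        mem_coe]
      refine ⟨not_not.1 fun h => h1 (T.mem_VD.2 ⟨b, by simpa using h, _, hb⟩), fun h => ?_⟩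
      exact hv.2 (Finset.mem_image.2 ⟨b, h, hb⟩)
  have hA2 : A.card = (D ∩ T.B).card := by
    apply Finset.card_nbij Subtype.val
    · intro b hb
      simp only [A, coe_filter, mem_univ, true_and, Set.mem_ofPred_eq] at hb
      simp [hb, (T.mem_B0.1 b.2).2]
    · exact Subtype.val_injective.injOn
    · intro x hx
      simp only [coe_inter, Set.mem_inter_iff, mem_coe, mem_B] at hx
      exact ⟨⟨x, T.mem_B0.2 ⟨fun h => hb0D (h ▸ hx.1), hx.2⟩⟩, by simp [A, hx.1], rfl⟩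
  have hA3 := Finset.card_sdiff_add_card_inter A q
  have hA4 := Finset.card_sdiff_add_card_inter D T.B
  have hA5 := Finset.card_sdiff_add_card_eq_card (hΓ.trans Finset.inter_subset_left)
  have hA6 : ∑ b ∈ q, (if b.1 ∈ D then 1 else -1 : ℤ) = 2 * (A ∩ q).card - q.card := by
    have : ∀ b ∈ q, (if b.1 ∈ D then 1 else -1 : ℤ) = 2 * (if b ∈ A then 1 else 0) - 1 := by
      intro b _
      by_cases h : b.1 ∈ D <;> simp [A, h]
    rw [Finset.sum_congr rfl this, Finset.sum_sub_distrib, ← Finset.mul_sum]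
    simp [Finset.filter_mem_eq_inter, Finset.inter_comm]
  have hA7 : ∑ b ∈ q, (if b.1 ∈ D then 1 else -1 : ℤ) =
      3 * ((D ∩ T.B).card - (D \ T.B).card) := by
    have h1 := hsupp (R := ℤ) fun _ _ => 1
    rw [T.div_formula (fun _ _ => 1) (fun _ _ => rfl) fun x => if x ∈ D then (1 : ℤ) else 0] at h1
    simp only [one_mul] at h1
    rw [← h1]
    have : ∀ x, T.sg ℤ x * (if x ∈ D then (1 : ℤ) else 0) * ∑ i : Fin 3, (1 : ℤ) =
        3 * ((if x ∈ D ∩ T.B then 1 else 0) - (if x ∈ D \ T.B then 1 else 0)) := by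
      intro x
      by_cases h : x ∈ D <;> cases hs : T.s x <;> simp [sg, h, hs]
    simp only [this]
    rw [← Finset.mul_sum, Finset.sum_sub_distrib]
    simp only [Finset.sum_ite_mem, Finset.univ_inter, Finset.sum_const, nsmul_eq_mul, mul_one]
  have hA8 : ∑ b ∈ q, (if b.1 ∈ D then 1 else -1 : ℤ) = -3 := by omega
  refine ⟨- η b1, by omega, ?_, D, hb0D, by omega, fun u => ?_⟩
  · rw [Finset.sum_congr rfl hη3, ← Finset.mul_sum] at hA8
    rcases hη1 with h | h <;> rw [h] at hA8 ⊢ <;> omega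
  · rw [hsupp, Finset.mul_sum]
    refine Finset.sum_congr rfl fun b hb => ?_
    have := congrArg (Int.cast : ℤ → ℝ) (hη3 b hb)
    push_cast at this ⊢
    rw [this]
    simp only [o]
    ring

end Gem

end Vale.Agent.P039
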