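import Mathlib
import Vale.Agent.P039.Cyc

open Finset

set_option linter.unusedSectionVars false

namespace Vale.Agent.P039

variable {X V : Type} [Fintype X] [Fintype V] [DecidableEq X] [DecidableEq V]

lemma sign_eq_one_of_odd {ι : Type} [Fintype ι] [DecidableEq ι] (π : Equiv.Perm ι)
    (h : ∀ b, Odd (univ.filter fun b' => π.SameCycle b b').card) : Equiv.Perm.sign π = 1 := by
  rw [Equiv.Perm.sign_of_cycleType']
  apply Multiset.prod_eq_one
  intro x hx
  obtain ⟨n, hn, rfl⟩ := Multiset.mem_map.1 hx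
  rw [Equiv.Perm.cycleType_def] at hn
  obtain ⟨c, hc, rfl⟩ := Multiset.mem_map.1 hn
  have hc' : c ∈ π.cycleFactorsFinset := hc
  obtain ⟨a, ha, -⟩ := (Equiv.Perm.mem_cycleFactorsFinset_iff.1 hc').1
  have ha' : a ∈ c.support := by simpa using ha
  have h1 := Equiv.Perm.cycle_is_cycleOf ha' hc'
  have h2 : a ∈ π.support := Equiv.Perm.mem_cycleFactorsFinset_support_le hc' ha'
  have h3 : c.support = univ.filter fun b' => π.SameCycle a b' := by
    ext y
    rw [h1, Equiv.Perm.mem_support_cycleOf_iff]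
    simp [h2]
  simp only [Function.comp, h3]
  rw [(h a).neg_one_pow]
  simp

lemma sameCycle_const {ι α : Type} [Fintype ι] [DecidableEq ι] (π : Equiv.Perm ι) (b1 : ι)
    (η : ι → α) (h : ∀ b, π.SameCycle b1 b → η (π b) = η b) (b : ι) (hb : π.SameCycle b1 b) :
    η b = η b1 := by
  obtain ⟨n, -, rfl⟩ := hb.exists_pow_eq'
  clear hb
  induction n with
  | zero => simp
  | succ n ih =>
    rw [pow_succ', Equiv.Perm.mul_apply, h _ ⟨n, by simp⟩, ih]

lemma exp_add_exp (m φ : ℝ) : Complex.exp (((m - φ : ℝ) : ℂ) * Complex.I) +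
    Complex.exp (((m + φ : ℝ) : ℂ) * Complex.I) =
    Complex.exp ((m : ℂ) * Complex.I) * ((2 * Real.cos φ : ℝ) : ℂ) := by
  push_cast
  rw [Complex.two_cos, mul_add, ← Complex.exp_add, ← Complex.exp_add, add_comm]
  congr 2 <;> ring

lemma dl_swap {i j : Fin 3} (h : i ≠ j) : dl j i = - dl i j := by revert i j; decide

namespace Gem

variable (T : Gem X V)

lemma exists_perm {b0 : X} (hb0 : T.s b0 = true) {ρ σ : T.B0 b0 → Fin 3}
    (hρ : T.Valid b0 ρ) (hσ : T.Valid b0 σ) :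
    ∃ π : Equiv.Perm (T.B0 b0), ∀ b, T.vtx (π b) (σ (π b)) = T.vtx b (ρ b) := by
  choose f hf using fun b => hσ.surj hb0 _ (hρ.2 b)
  have : Function.Injective f := by
    intro b b' h
    apply hρ.1
    simp only [← hf, h]
  exact ⟨Equiv.ofBijective f (Finite.injective_iff_bijective.1 this), hf⟩

theorem cycle_cls {b0 : X} (hb0 : T.s b0 = true) {ρ σ : T.B0 b0 → Fin 3}
    (hρ : T.Valid b0 ρ) (hσ : T.Valid b0 σ) (hne : ∀ b, ρ b ≠ σ b) (π : Equiv.Perm (T.B0 b0))
    (hπ : ∀ b, T.vtx (π b) (σ (π b)) = T.vtx b (ρ b)) (b1 : T.B0 b0) :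
    ∃ κ : ℤ, (κ = 1 ∨ κ = -1) ∧
      ∑ b ∈ univ.filter (fun b => π.SameCycle b1 b), dl (ρ b) (σ b) = 3 * κ ∧
      ∃ D : Finset X, b0 ∉ D ∧ 1 ≤ (D \ T.B).card ∧ ∀ u : X → Fin 3 → ℝ,
        ∑ x ∈ T.B, ∑ i, u x i * ((if x ∈ D then 1 else 0) - (if T.τ i x ∈ D then 1 else 0)) =
          - κ * ∑ b ∈ univ.filter (fun b => π.SameCycle b1 b),
            dl (ρ b) (σ b) * u b (th (ρ b) (σ b)) := by
  apply T.cycle_lemma hb0 hρ hσ hne π hπ _ b1
  · simp [Equiv.Perm.SameCycle.refl]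
  · intro b; simp
  · intro η h b hb
    exact sameCycle_const π b1 η (fun b hb => h b (by simpa using hb)) b (by simpa using hb)

theorem sign_pair {b0 : X} (hb0 : T.s b0 = true) {ρ σ : T.B0 b0 → Fin 3}
    (hρ : T.Valid b0 ρ) (hσ : T.Valid b0 σ) (hne : ∀ b, ρ b ≠ σ b) (π : Equiv.Perm (T.B0 b0))
    (hπ : ∀ b, T.vtx (π b) (σ (π b)) = T.vtx b (ρ b)) : Equiv.Perm.sign π = 1 := by
  apply sign_eq_one_of_odd
  intro b1
  obtain ⟨κ, h1, h2, -⟩ := T.cycle_cls hb0 hρ hσ hne π hπ b1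
  set q := univ.filter (fun b => π.SameCycle b1 b)
  have h3 : ∑ b ∈ q, dl (ρ b) (σ b) =
      2 * (∑ b ∈ q, if σ b = ρ b + 1 then 1 else 0) - q.card := by
    rw [Finset.card_eq_sum_ones, Finset.mul_sum]
    push_cast
    rw [← Finset.sum_sub_distrib]
    refine Finset.sum_congr rfl fun b _ => ?_
    unfold dl
    split_ifs <;> simp
  rw [Nat.odd_iff]
  omega

lemma valid_mix {b0 : X} {ρ σ : T.B0 b0 → Fin 3}
    (hρ : T.Valid b0 ρ) (hσ : T.Valid b0 σ) (π : Equiv.Perm (T.B0 b0))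
    (hπ : ∀ b, T.vtx (π b) (σ (π b)) = T.vtx b (ρ b)) (c : T.B0 b0 → Bool)
    (hc : ∀ b, c (π b) = c b) : T.Valid b0 fun b => if c b then ρ b else σ b := by
  constructor
  · intro b b' h
    simp only at h
    cases h1 : c b <;> cases h2 : c b' <;> simp only [h1, h2, if_true, Bool.false_eq_true,
      if_false] at h
    · exact hσ.1 h
    · rw [← hπ] at h
      rw [hσ.1 h, hc, h2] at h1
      cases h1
    · rw [← hπ] at h
      rw [← hσ.1 h, hc, h1] at h2
      cases h2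
    · exact hρ.1 h
  · intro b
    simp only
    split_ifs
    · exact hρ.2 b
    · exact hσ.2 b

open Classical in
noncomputable def Fib (b0 : X) (o : T.B0 b0 → Fin 3) :
    Finset ((T.B0 b0 → Fin 3) × (T.B0 b0 → Fin 3)) :=
  univ.filter fun p => T.Valid b0 p.1 ∧ T.Valid b0 p.2 ∧ (∀ b, p.1 b ≠ p.2 b) ∧
    ∀ b, th (p.1 b) (p.2 b) = o b

theorem fiber_sum {b0 : X} {ρ σ : T.B0 b0 → Fin 3}
    (hρ : T.Valid b0 ρ) (hσ : T.Valid b0 σ) (hne : ∀ b, ρ b ≠ σ b) (π : Equiv.Perm (T.B0 b0))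
    (hπ : ∀ b, T.vtx (π b) (σ (π b)) = T.vtx b (ρ b)) (U : T.B0 b0 → Fin 3 → Fin 3 → ℂ)
    [DecidableEq (Quotient (Equiv.Perm.SameCycle.setoid π))]
    [Fintype (Quotient (Equiv.Perm.SameCycle.setoid π))] :
    ∑ p ∈ T.Fib b0 (fun b => th (ρ b) (σ b)), ∏ b, U b (p.1 b) (p.2 b) =
      ∏ q : Quotient (Equiv.Perm.SameCycle.setoid π),
        (∏ b ∈ univ.filter (fun b => Quotient.mk _ b = q), U b (ρ b) (σ b) +
        ∏ b ∈ univ.filter (fun b => Quotient.mk _ b = q), U b (σ b) (ρ b)) := by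
  classical
  let cls : T.B0 b0 → Quotient (Equiv.Perm.SameCycle.setoid π) := Quotient.mk _
  have hcls : ∀ b, cls (π b) = cls b := fun b =>
    Quotient.sound (show π.SameCycle (π b) b by simp [Equiv.Perm.SameCycle.refl])
  have h1 := Finset.prod_univ_sum (fun _ => (univ : Finset Bool))
    (fun (q : Quotient (Equiv.Perm.SameCycle.setoid π)) (x : Bool) =>
      ∏ b ∈ univ.filter (fun b => cls b = q), if x then U b (ρ b) (σ b) else U b (σ b) (ρ b))
  simp only [Fintype.univ_bool, Finset.mem_singleton, Bool.true_eq_false, not_false_eq_true,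
    Finset.sum_insert, Finset.sum_singleton, if_true, Bool.false_eq_true, if_false] at h1
  rw [h1, eq_comm]
  apply Finset.sum_nbij (fun χ => (fun b => if χ (cls b) then ρ b else σ b,
    fun b => if (!χ (cls b)) then ρ b else σ b))
  · intro χ _
    simp only [Fib, mem_filter, mem_univ, true_and]
    refine ⟨T.valid_mix hρ hσ π hπ _ fun b => by rw [hcls],
      T.valid_mix hρ hσ π hπ _ fun b => by rw [hcls], fun b => ?_, fun b => ?_⟩
    · cases χ (cls b) <;> simp [hne b, (hne b).symm]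
    · cases χ (cls b) <;> simp [th, add_comm]
  · intro χ _ χ' _ h
    funext q
    obtain ⟨b, rfl⟩ := Quotient.exists_rep q
    have := congrFun (congrArg Prod.fst h) b
    simp only at this
    change χ (cls b) = χ' (cls b)
    cases h1 : χ (cls b) <;> cases h2 : χ' (cls b) <;> simp [h1, h2, hne b, (hne b).symm] at this ⊢
  · rintro ⟨ρ', σ'⟩ hp
    simp only [Fib, coe_filter, mem_univ, true_and, Set.mem_ofPred_eq] at hp
    obtain ⟨hρ', hσ', hne', hth⟩ := hp
    have h2 : ∀ b, (ρ' b = ρ b ∧ σ' b = σ b) ∨ (ρ' b = σ b ∧ σ' b = ρ b) := by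
      have : ∀ i j k l : Fin 3, i ≠ j → k ≠ l → th i j = th k l →
        (i = k ∧ j = l) ∨ (i = l ∧ j = k) := by decide
      exact fun b => this _ _ _ _ (hne' b) (hne b) (hth b)
    have h3 : ∀ b, π b ≠ b := by
      intro b h
      have := hπ b
      rw [h] at this
      exact hne b (T.vtx_inj this).symm
    have h4 : ∀ b, decide (ρ' (π b) = ρ (π b)) = decide (ρ' b = ρ b) := by
      intro b
      rcases h2 b with ⟨a1, a2⟩ | ⟨a1, a2⟩ <;> rcases h2 (π b) with ⟨a3, a4⟩ | ⟨a3, a4⟩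
      · simp [a1, a3]
      · exact (h3 b (hρ'.1 (by simp only [a1, a3, hπ]))).elim
      · exact (h3 b (hσ'.1 (by simp only [a2, a4, hπ]))).elim
      · simp [a1, a3, (hne _).symm]
    refine ⟨Quotient.lift (fun b => decide (ρ' b = ρ b)) fun b b' h =>
      (sameCycle_const π b (fun b => decide (ρ' b = ρ b)) (fun b _ => h4 b) b' h).symm, by simp, ?_⟩
    ext b
    · rcases h2 b with ⟨a1, a2⟩ | ⟨a1, a2⟩ <;> simp [cls, a1, (hne _).symm]
    · rcases h2 b with ⟨a1, a2⟩ | ⟨a1, a2⟩ <;> simp [cls, a1, a2, (hne _).symm]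
  · intro χ _
    rw [← Finset.prod_fiberwise univ cls]
    refine Finset.prod_congr rfl fun q _ => Finset.prod_congr rfl fun b hb => ?_
    simp only [(Finset.mem_filter.1 hb).2]
    cases χ q <;> simp

end Gem

end Vale.Agent.P039
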