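import Mathlib
import Vale.Agent.P039.Det

open Finset

set_option linter.unusedSectionVars false

namespace Vale.Agent.P039

variable {X V : Type} [Fintype X] [Fintype V] [DecidableEq X] [DecidableEq V]

def eps (i j : Fin 3) : ℂ := if i = j then 0 else (dl i j : ℂ)

noncomputable def UU (θ a : ℝ) (i j : Fin 3) : ℂ :=
  (-Complex.I) * Complex.exp (((θ * a : ℝ) : ℂ) * Complex.I) * eps i j

lemma UU_eq (θ a : ℝ) {i j : Fin 3} (h : i ≠ j) :
    UU θ a i j = Complex.exp (((θ * a - Real.pi / 2 * dl i j : ℝ) : ℂ) * Complex.I) := by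
  unfold UU eps
  rw [if_neg h]
  push_cast
  rw [sub_mul, Complex.exp_sub]
  rcases dl_pm i j with h | h <;> rw [h]
  · simp only [Int.cast_one, mul_one]
    rw [Complex.exp_pi_div_two_mul_I, div_eq_mul_inv, Complex.inv_I]
    ring
  · simp only [Int.cast_neg, Int.cast_one, mul_neg, mul_one, neg_mul]
    rw [Complex.exp_neg, Complex.exp_pi_div_two_mul_I, div_inv_eq_mul]
    ring

namespace Gem

variable (T : Gem X V)

theorem exists_weights {b0 : X} (hb0 : T.s b0 = true) : ∃ α a : X → Fin 3 → ℝ,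
    (∀ b ∈ T.B0 b0, ∀ i, a b (i + 2) - a b (i + 1) = α b i) ∧ ∀ D : Finset X, b0 ∉ D →
      ∑ x ∈ T.B, ∑ i, α x i * ((if x ∈ D then 1 else 0) - (if T.τ i x ∈ D then 1 else 0)) =
        - ((D \ T.B).card : ℝ) := by
  let c : X → ℝ := fun x => (if x = b0 then (T.Bᶜ.card : ℝ) else 0) - if x ∈ T.Bᶜ then 1 else 0
  obtain ⟨α, hα⟩ := T.flow c (by
    simp only [c, Finset.sum_sub_distrib, Finset.sum_ite_mem, Finset.univ_inter]
    simp)
  refine ⟨α, fun b j => (α b (j + 1) - α b (j + 2)) / 3, fun b hb i => ?_, fun D hD => ?_⟩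
  · obtain ⟨h1, h2⟩ := T.mem_B0.1 hb
    have h3 := hα fun x => if x = b then 1 else 0
    rw [Finset.sum_eq_single b] at h3
    · simp only [if_true, if_neg (T.τ_ne _ b), sub_zero, mul_one, mul_ite, mul_zero,
        Finset.sum_ite_eq', Finset.mem_univ, c, if_neg h1] at h3
      rw [if_neg (by simp [h2]), f3_sum _ i] at h3
      have e1 : i + 2 + 1 = i := by clear * -; revert i; decide
      have e2 : i + 2 + 2 = i + 1 := by clear * -; revert i; decide
      have e3 : i + 1 + 1 = i + 2 := by clear * -; revert i; decide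
      have e4 : i + 1 + 2 = i := by clear * -; revert i; decide
      simp only [e1, e2, e3, e4]
      linarith
    · intro x hx hne
      apply Finset.sum_eq_zero
      intro j _
      rw [if_neg hne, if_neg, sub_zero, mul_zero]
      intro h
      have := T.s_τ j x
      rw [h, h2, T.mem_B x |>.1 hx] at this
      cases this
    · intro h; exact (h (by simpa using h2)).elim
  · rw [hα fun x => if x ∈ D then 1 else 0]
    have : ∀ x, c x * (if x ∈ D then 1 else 0) = - if x ∈ D \ T.B then (1 : ℝ) else 0 := by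
      intro x
      by_cases h1 : x ∈ D
      · have : x ≠ b0 := fun h => hD (h ▸ h1)
        simp [c, h1, this]
      · simp [h1]
    simp only [this, Finset.sum_neg_distrib, Finset.sum_ite_mem, Finset.univ_inter]
    simp

theorem fiber_pos {b0 : X} (hb0 : T.s b0 = true) {α a : X → Fin 3 → ℝ}
    (ha : ∀ b ∈ T.B0 b0, ∀ i, a b (i + 2) - a b (i + 1) = α b i)
    (hα : ∀ D : Finset X, b0 ∉ D →
      ∑ x ∈ T.B, ∑ i, α x i * ((if x ∈ D then 1 else 0) - (if T.τ i x ∈ D then 1 else 0)) =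
        - ((D \ T.B).card : ℝ)) {θ : ℝ} (h0 : 0 < θ) (h1 : θ * Fintype.card X < 1)
    (h2 : θ * ∑ b : T.B0 b0, ∑ j, |a b j| < 1) {ρ σ : T.B0 b0 → Fin 3}
    (hρ : T.Valid b0 ρ) (hσ : T.Valid b0 σ) (hne : ∀ b, ρ b ≠ σ b) :
    0 < (∑ p ∈ T.Fib b0 (fun b => th (ρ b) (σ b)), ∏ b : T.B0 b0, UU θ (a b (p.1 b)) (p.1 b) (p.2 b)).re := by
  classical
  obtain ⟨π, hπ⟩ := T.exists_perm hb0 hρ hσ
  rw [T.fiber_sum hρ hσ hne π hπ fun b i j => UU θ (a b i) i j]
  let cls : T.B0 b0 → Quotient (Equiv.Perm.SameCycle.setoid π) := Quotient.mk _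
  have key : ∀ q, ∃ p : ℝ, 0 < p ∧
      (∏ b ∈ univ.filter (fun b => cls b = q), UU θ (a b (ρ b)) (ρ b) (σ b) +
        ∏ b ∈ univ.filter (fun b => cls b = q), UU θ (a b (σ b)) (σ b) (ρ b)) =
      Complex.exp (((∑ b ∈ univ.filter (fun b => cls b = q),
        θ * (a b (ρ b) + a b (σ b)) / 2 : ℝ) : ℂ) * Complex.I) * (p : ℂ) := by
    intro q
    obtain ⟨b1, rfl⟩ := Quotient.exists_rep q
    obtain ⟨κ, k1, k2, D, k3, k4, k5⟩ := T.cycle_cls hb0 hρ hσ hne π hπ b1
    have e : univ.filter (fun b => cls b = Quotient.mk _ b1) =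
        univ.filter (fun b => π.SameCycle b1 b) := by
      ext b
      simp only [mem_filter, mem_univ, true_and, cls, Quotient.eq]
      exact ⟨fun h => Equiv.Perm.SameCycle.symm h, fun h => Equiv.Perm.SameCycle.symm h⟩
    rw [e]
    set Q := univ.filter (fun b => π.SameCycle b1 b)
    have k6 := k5 α
    rw [hα D k3] at k6
    have k7 : ∑ b ∈ Q, dl (ρ b) (σ b) * α b (th (ρ b) (σ b)) =
        ∑ b ∈ Q, a b (σ b) - ∑ b ∈ Q, a b (ρ b) := by
      rw [← Finset.sum_sub_distrib]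
      refine Finset.sum_congr rfl fun b _ => ?_
      rw [← ha b b.2, dl_mul (hne b) (a b)]
    rw [k7] at k6
    have k8 : ∑ b ∈ Q, (dl (ρ b) (σ b) : ℝ) = 3 * κ := by exact_mod_cast k2
    set W : ℝ := ((D \ T.B).card : ℝ) with hW
    have w1 : 1 ≤ W := by rw [hW]; exact_mod_cast k4
    have w2 : W ≤ Fintype.card X := by rw [hW]; exact_mod_cast Finset.card_le_univ _
    refine ⟨2 * Real.cos (κ * (θ * W / 2 + 3 * Real.pi / 2)), ?_, ?_⟩
    · have : Real.cos (κ * (θ * W / 2 + 3 * Real.pi / 2)) = Real.sin (θ * W / 2) := by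
        have h3 : Real.cos (θ * W / 2 + 3 * Real.pi / 2) = Real.sin (θ * W / 2) := by
          rw [show θ * W / 2 + 3 * Real.pi / 2 = (θ * W / 2 - Real.pi / 2) + 2 * Real.pi by ring,
            Real.cos_add_two_pi, Real.cos_sub_pi_div_two]
        rcases k1 with h | h <;> simp [h, ← h3, ← Real.cos_neg (θ * W / 2 + _)]
      rw [this]
      have h4 : θ * W ≤ θ * Fintype.card X := mul_le_mul_of_nonneg_left w2 h0.le
      have h5 : 0 < θ * W := by positivity
      have := Real.sin_pos_of_pos_of_lt_pi (x := θ * W / 2) (by linarith)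
        (by linarith [Real.pi_gt_three])
      linarith
    · rw [← exp_add_exp]
      have k9 : ∑ b ∈ Q, a b (σ b) = ∑ b ∈ Q, a b (ρ b) + κ * W := by
        rcases k1 with h | h <;> simp only [h] at k6 ⊢ <;> push_cast at k6 ⊢ <;> linarith
      congr 1
      · rw [Finset.prod_congr rfl fun b _ => UU_eq θ _ (hne b), ← Complex.exp_sum,
          ← Finset.sum_mul, ← Complex.ofReal_sum]
        congr 3
        simp only [Finset.sum_sub_distrib, ← Finset.mul_sum, ← Finset.sum_div,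
          Finset.sum_add_distrib, k8, k9]
        ring
      · rw [Finset.prod_congr rfl fun b _ => UU_eq θ _ (hne b).symm, ← Complex.exp_sum,
          ← Finset.sum_mul, ← Complex.ofReal_sum]
        congr 3
        simp only [fun b => dl_swap (hne b), Int.cast_neg, Finset.sum_neg_distrib,
          Finset.sum_sub_distrib, ← Finset.mul_sum, ← Finset.sum_div,
          Finset.sum_add_distrib, k8, k9]
        ring
  choose p hp hp' using key
  rw [Finset.prod_congr rfl fun q _ => hp' q, Finset.prod_mul_distrib, ← Complex.exp_sum,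
    ← Finset.sum_mul, ← Complex.ofReal_sum, ← Complex.ofReal_prod, Finset.sum_fiberwise,
    Complex.re_mul_ofReal, Complex.exp_ofReal_mul_I_re]
  apply mul_pos _ (Finset.prod_pos fun q _ => hp q)
  have h3 : |∑ b : T.B0 b0, θ * (a b (ρ b) + a b (σ b)) / 2| ≤ θ * ∑ b : T.B0 b0, ∑ j, |a b j| := by
    rw [Finset.mul_sum]
    refine (Finset.abs_sum_le_sum_abs _ _).trans (Finset.sum_le_sum fun b _ => ?_)
    have h4 := Finset.single_le_sum (f := fun j => |a b j|) (fun _ _ => abs_nonneg _)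
      (Finset.mem_univ (ρ b))
    have h5 := Finset.single_le_sum (f := fun j => |a b j|) (fun _ _ => abs_nonneg _)
      (Finset.mem_univ (σ b))
    have h6 := abs_add_le (a b (ρ b)) (a b (σ b))
    rw [mul_div_assoc, abs_mul, abs_of_pos h0, abs_div, abs_two]
    apply mul_le_mul_of_nonneg_left _ h0.le
    linarith
  rw [abs_le] at h3
  apply Real.cos_pos_of_mem_Ioo
  constructor <;> linarith [Real.pi_gt_three]

open Classical in
theorem det_expand {b0 : X} {ρ0 : T.B0 b0 → Fin 3} (h0 : T.Valid b0 ρ0)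
    (P : (T.B0 b0 → Fin 3) → Equiv.Perm (T.B0 b0))
    (hP : ∀ σ, T.Valid b0 σ → ∀ b, T.vtx (P σ b) (ρ0 (P σ b)) = T.vtx b (σ b))
    (u : T.B0 b0 → Fin 3 → ℂ) :
    (Matrix.of fun b' b : T.B0 b0 =>
      if T.vtx b (ρ0 b') = T.vtx b' (ρ0 b') then u b (ρ0 b') else 0).det =
    ∑ σ ∈ univ.filter (T.Valid b0), (Equiv.Perm.sign (P σ) : ℂ) * ∏ b, u b (σ b) := by
  rw [Matrix.det_apply', eq_comm]
  apply Finset.sum_of_injOn P
  · intro σ hσ σ' hσ' h
    simp only [coe_filter, mem_univ, true_and, Set.mem_ofPred_eq] at hσ hσ'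
    funext b
    apply T.vtx_inj (x := b) (y := b)
    rw [← hP σ hσ, ← hP σ' hσ', h]
  · intro _ _; simp
  · intro π _ hn
    by_contra hne
    apply hn
    have h1 : ∀ b : T.B0 b0, T.vtx b (ρ0 (π b)) = T.vtx (π b) (ρ0 (π b)) := by
      intro b
      by_contra h
      apply hne
      rw [Finset.prod_eq_zero (Finset.mem_univ b), mul_zero]
      simp [h]
    have h2 : T.Valid b0 fun b => ρ0 (π b) := by
      constructor
      · intro b b' h
        simp only [h1] at h
        exact π.injective (h0.1 h)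
      · intro b
        simp only [h1]
        exact h0.2 _
    refine ⟨_, by simpa using h2, ?_⟩
    ext b
    congr 1
    apply h0.1
    simp only [hP _ h2, h1]
  · intro σ hσ
    simp only [mem_filter, mem_univ, true_and] at hσ
    congr 1
    refine Finset.prod_congr rfl fun b _ => ?_
    have h1 := hP σ hσ b
    have h2 := T.vtx_inj h1
    rw [Matrix.of_apply, h1, h2, if_pos rfl]

theorem exists_nonsing (hI : T.Irr) (b0 : X) (hb0 : T.s b0 = true) :
    ∃ ρ : T.B0 b0 → Fin 3, T.Valid b0 ρ ∧ ∀ z : T.B0 b0 → ℂ,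
      (∀ g : V → ℂ, (∀ v ∈ T.Rt b0, g v = 0) →
        ∑ b, z b * (g (T.vtx b (ρ b + 1)) - g (T.vtx b (ρ b + 2))) = 0) → z = 0 := by
  classical
  obtain ⟨ρ0, σ0, hρ0, hσ0, hne0⟩ := T.exists_paired hI b0 hb0
  have : ∀ σ, ∃ π : Equiv.Perm (T.B0 b0), T.Valid b0 σ →
      ∀ b, T.vtx (π b) (ρ0 (π b)) = T.vtx b (σ b) := by
    intro σ
    by_cases h : T.Valid b0 σ
    · obtain ⟨π, hπ⟩ := T.exists_perm hb0 h hρ0
      exact ⟨π, fun _ => hπ⟩
    · exact ⟨1, fun h' => (h h').elim⟩
  choose P hP using this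
  obtain ⟨α, a, ha, hα⟩ := T.exists_weights hb0
  set L : ℝ := ∑ b : T.B0 b0, ∑ j, |a b j| with hL
  have L0 : 0 ≤ L := Finset.sum_nonneg fun _ _ => Finset.sum_nonneg fun _ _ => abs_nonneg _
  have X0 : (0 : ℝ) ≤ Fintype.card X := Nat.cast_nonneg _
  set θ : ℝ := 1 / (L + Fintype.card X + 1) with hθ
  have t0 : 0 < θ := by positivity
  have t1 : θ * Fintype.card X < 1 := by
    rw [hθ, one_div_mul_eq_div, div_lt_one (by positivity)]; linarith
  have t2 : θ * L < 1 := by
    rw [hθ, one_div_mul_eq_div, div_lt_one (by positivity)]; linarith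
  by_contra hcon
  have hdet : ∀ ρ, T.Valid b0 ρ →
      ∑ σ ∈ univ.filter (T.Valid b0), (Equiv.Perm.sign (P σ) : ℂ) * ∏ b, eps (ρ b) (σ b) = 0 := by
    intro ρ hρ
    rw [← T.det_expand hρ0 P hP fun b j => eps (ρ b) j, ← Matrix.exists_mulVec_eq_zero_iff]
    by_contra hn
    refine hcon ⟨ρ, hρ, fun z hz => ?_⟩
    by_contra hz0
    refine hn ⟨z, hz0, ?_⟩
    funext b'
    have := hz (fun v => if v = T.vtx b' (ρ0 b') then 1 else 0) fun v hv =>
      if_neg fun h => hρ0.2 b' (by rw [← h]; exact hv)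
    refine Eq.trans ?_ this
    simp only [Matrix.mulVec, dotProduct, Matrix.of_apply]
    refine Finset.sum_congr rfl fun b _ => ?_
    rw [mul_comm]
    congr 1
    have h1 : ∀ j, j ≠ ρ0 b' → T.vtx b j ≠ T.vtx b' (ρ0 b') := fun j hj h => hj (T.vtx_inj h)
    rcases f3_cases (ρ b) (ρ0 b') with h | h | h
    · rw [if_neg (h1 (ρ b + 1) (by rw [h]; exact f3_1 _)),
        if_neg (h1 (ρ b + 2) (by rw [h]; exact f3_2 _))]
      simp [eps, h]
    · rw [if_neg (h1 (ρ b + 2) (by rw [h]; exact (f3_12 _).symm)), ← h]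
      simp [eps, dl, h]
    · rw [if_neg (h1 (ρ b + 1) (by rw [h]; exact (f3_12 _))), ← h]
      split_ifs <;> simp [eps, dl, h]
  let Pr : Finset ((T.B0 b0 → Fin 3) × (T.B0 b0 → Fin 3)) :=
    univ.filter fun p => T.Valid b0 p.1 ∧ T.Valid b0 p.2 ∧ (∀ b, p.1 b ≠ p.2 b)
  have hS : ∑ p ∈ Pr, ∏ b : T.B0 b0, UU θ (a b (p.1 b)) (p.1 b) (p.2 b) = 0 := by
    have h1 : ∑ ρ ∈ univ.filter (T.Valid b0), ∑ σ ∈ univ.filter (T.Valid b0),
        (Equiv.Perm.sign (P ρ) : ℂ) * (Equiv.Perm.sign (P σ) : ℂ) *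
        ∏ b : T.B0 b0, UU θ (a b (ρ b)) (ρ b) (σ b) = 0 := by
      apply Finset.sum_eq_zero
      intro ρ hρ
      have := hdet ρ (by simpa using hρ)
      simp only [UU, Finset.prod_mul_distrib (g := fun b => eps (ρ b) _)]
      rw [← mul_zero ((Equiv.Perm.sign (P ρ) : ℂ) *
        ∏ b : T.B0 b0, (-Complex.I * Complex.exp (((θ * a b (ρ b) : ℝ) : ℂ) * Complex.I))),
        ← this, Finset.mul_sum]
      refine Finset.sum_congr rfl fun σ _ => ?_
      ring
    rw [← h1, ← Finset.sum_product']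
    apply Finset.sum_subset_zero_on_sdiff
    · intro p hp
      simp only [Pr, mem_filter, mem_univ, true_and, mem_product] at hp ⊢
      exact ⟨hp.1, hp.2.1⟩
    · intro p hp
      simp only [Pr, mem_filter, mem_univ, true_and, mem_product, mem_sdiff, not_and,
        not_forall, not_not] at hp
      obtain ⟨b, hb⟩ := hp.2 hp.1.1 hp.1.2
      rw [Finset.prod_eq_zero (Finset.mem_univ b), mul_zero]
      simp [UU, eps, hb]
    · intro p hp
      simp only [Pr, mem_filter, mem_univ, true_and] at hp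
      have h2 := T.sign_pair hb0 hp.1 hp.2.1 hp.2.2 ((P p.2)⁻¹ * P p.1) (by
        intro b
        rw [← hP _ hp.2.1, ← hP _ hp.1]
        simp)
      rw [Equiv.Perm.sign_mul, Equiv.Perm.sign_inv, mul_comm] at h2
      have h3 : ((Equiv.Perm.sign (P p.1) * Equiv.Perm.sign (P p.2) : ℤˣ) : ℂ) = 1 := by
        rw [h2]; simp
      push_cast at h3
      rw [h3, one_mul]
  rw [← Finset.sum_fiberwise Pr fun p b => th (p.1 b) (p.2 b)] at hS
  have hF : ∀ o, Pr.filter (fun p => (fun b => th (p.1 b) (p.2 b)) = o) = T.Fib b0 o := by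
    intro o
    ext p
    simp only [Pr, Fib, mem_filter, mem_univ, true_and, funext_iff, and_assoc]
  simp only [hF] at hS
  have hre := congrArg Complex.re hS
  rw [Complex.re_sum, Complex.zero_re] at hre
  refine absurd hre (ne_of_gt (Finset.sum_pos' (fun o _ => ?_) ⟨fun b => th (ρ0 b) (σ0 b),
    Finset.mem_univ _, T.fiber_pos hb0 ha hα t0 t1 t2 hρ0 hσ0 hne0⟩))
  rcases (T.Fib b0 o).eq_empty_or_nonempty with h | ⟨p, hp⟩
  · simp [h]
  · simp only [Fib, mem_filter, mem_univ, true_and] at hp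
    obtain rfl : (fun b => th (p.1 b) (p.2 b)) = o := funext hp.2.2.2
    exact (T.fiber_pos hb0 ha hα t0 t1 t2 hp.1 hp.2.1 hp.2.2.1).le

end Gem

end Vale.Agent.P039
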