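import Mathlib
import Vale.Agent.P039.Sum

open Finset

set_option linter.unusedSectionVars false

namespace Vale.Agent.P039

variable {X V : Type} [Fintype X] [Fintype V] [DecidableEq X] [DecidableEq V]

namespace Gem

variable (T : Gem X V)

def Good (x0 : X) (k : Fin 3) (m : X → Fin 3) : Prop :=
  (∀ x, m (T.τ (m x) x) = m x) ∧ m x0 = k ∧ ∀ g : V → Prop,
    (∀ x, g (T.vtx x (m x + 1)) ↔ g (T.vtx x (m x + 2))) → (∀ j, g (T.vtx x0 j)) → ∀ v, g v

theorem exists_match (b0 : X) (hb0 : T.s b0 = true) (k : Fin 3) (ρ : T.B0 b0 → Fin 3)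
    (hns : ∀ z : T.B0 b0 → ℂ, (∀ g : V → ℂ, (∀ v ∈ T.Rt b0, g v = 0) →
        ∑ b, z b * (g (T.vtx b (ρ b + 1)) - g (T.vtx b (ρ b + 2))) = 0) → z = 0) :
    ∃ m : X → Fin 3, (∀ x, m (T.τ (m x) x) = m x) ∧ m b0 = k ∧ ∀ b : T.B0 b0, m b ≠ ρ b := by
  let W0 : Finset X := T.Bᶜ.erase (T.τ k b0)
  have hW0 : ∀ x, x ∈ W0 ↔ x ≠ T.τ k b0 ∧ T.s x = false := by simp [W0]
  have hb : b0 ∈ T.B := by simpa using hb0
  have hcard : Fintype.card (T.B0 b0) = Fintype.card W0 := by
    have h1 := Finset.card_erase_add_one hb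
    have h2 := Finset.card_erase_add_one (s := T.Bᶜ) (a := T.τ k b0) (by simp [T.s_τ, hb0])
    have h3 := T.card_X
    have h4 := Finset.card_add_card_compl T.B
    rw [Fintype.card_coe, Fintype.card_coe]
    simp only [B0, W0]
    omega
  let M : Matrix (T.B0 b0) W0 ℂ := Matrix.of fun b w =>
    (if T.τ (ρ b + 1) b = w then 1 else 0) - (if T.τ (ρ b + 2) b = w then 1 else 0)
  obtain ⟨e, he⟩ := exists_equiv_of_inj M hcard (by
    intro y hy
    let y' : X → ℂ := fun x => if h : x ∈ W0 then y ⟨x, h⟩ else 0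
    have h1 : ∀ x : X, ∑ w : W0, (if x = w then 1 else 0) * y w = y' x := by
      intro x
      by_cases h : x ∈ W0
      · rw [Finset.sum_eq_single ⟨x, h⟩]
        · simp [y', h]
        · intro w _ hw
          rw [if_neg fun h' => hw (Subtype.ext (Eq.symm h')), zero_mul]
        · simp
      · simp only [y', dif_neg h]
        apply Finset.sum_eq_zero
        intro w _
        rw [if_neg fun h' => h (by rw [h']; exact w.2), zero_mul]
    have h2 : ∀ b : T.B0 b0, y' (T.τ (ρ b + 2) b) = y' (T.τ (ρ b + 1) b) := by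
      intro b
      have := congrFun hy b
      simp only [M, Matrix.mulVec, dotProduct, Matrix.of_apply, sub_mul, Finset.sum_sub_distrib,
        h1, Pi.zero_apply] at this
      exact (sub_eq_zero.1 this).symm
    let χ : X → ℂ := fun x => if h : x ∈ T.B0 b0 then y' (T.τ (ρ ⟨x, h⟩ + 1) x) else y' x
    have h3 : ∀ x i, T.s x = true → χ (T.τ i x) = y' (T.τ i x) := by
      intro x i hs
      simp only [χ]
      rw [dif_neg]
      simp [mem_B0, T.s_τ, hs]
    have h4 : ∀ b : T.B0 b0, χ b = y' (T.τ (ρ b + 1) b) := fun b => by simp only [χ, dif_pos b.2]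
    have h5 : χ b0 = 0 := by
      simp only [χ, y']
      rw [dif_neg (by simp [mem_B0]), dif_neg (by simp [hW0, hb0])]
    have h6 : ∀ g : V → ℂ, ∑ b : T.B0 b0, (χ b - χ (T.τ (ρ b) b)) *
        (g (T.vtx b (ρ b + 2)) - g (T.vtx b (ρ b + 1))) =
        ∑ i, χ (T.τ i b0) * (g (T.vtx b0 (i + 2)) - g (T.vtx b0 (i + 1))) := by
      intro g
      have := T.orth χ g
      rw [← Finset.sum_erase_add _ _ hb, h5] at this
      simp only [zero_sub, neg_mul, Finset.sum_neg_distrib] at this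
      rw [← add_neg_eq_zero, ← this]
      congr 1
      rw [← Finset.sum_coe_sort (T.B.erase b0)]
      refine Finset.sum_congr rfl fun b _ => ?_
      have hs := (T.mem_B0.1 b.2).2
      rw [f3_sum _ (ρ b), h3 _ (ρ b + 1) hs, h3 _ (ρ b + 2) hs, h2, h4]
      simp
    have h7 := hns (fun b => χ b - χ (T.τ (ρ b) b)) (by
      intro g hg
      have := h6 g
      simp only [hg _ (T.mem_Rt.2 ⟨_, rfl⟩), sub_self, mul_zero, Finset.sum_const_zero] at this
      rw [← neg_eq_zero, ← Finset.sum_neg_distrib, ← this]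
      refine Finset.sum_congr rfl fun b _ => ?_
      ring)
    have h8 : ∀ b : T.B0 b0, χ b - χ (T.τ (ρ b) b) = 0 := fun b => congrFun h7 b
    have h9 : ∀ j, χ (T.τ (j + 2) b0) = χ (T.τ (j + 1) b0) := by
      intro j
      have := h6 fun v => if v = T.vtx b0 j then 1 else 0
      have e0 : ∀ i, T.vtx b0 i = T.vtx b0 j ↔ i = j := fun i => ⟨T.vtx_inj, fun h => by rw [h]⟩
      simp only [h8, zero_mul, Finset.sum_const_zero, e0] at this
      fin_cases j <;> simp [Fin.sum_univ_three] at this ⊢ <;> linear_combination this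
    have h10 : ∀ j, χ (T.τ j b0) = 0 := by
      intro j
      rw [three_eq (fun j => χ (T.τ j b0)) h9 j k, h3 _ _ hb0]
      simp only [y']
      rw [dif_neg (by simp [hW0])]
    have h11 := T.connB χ (by
      intro i x hs
      by_cases hx : x = b0
      · rw [hx, h10, h5]
      · have hx' : x ∈ T.B0 b0 := T.mem_B0.2 ⟨hx, hs⟩
        rcases f3_cases (ρ ⟨x, hx'⟩) i with h | h | h <;> rw [h]
        · exact (sub_eq_zero.1 (h8 ⟨x, hx'⟩)).symm
        · rw [h3 _ _ hs]; exact (h4 ⟨x, hx'⟩).symm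
        · rw [h3 _ _ hs]; exact (h2 ⟨x, hx'⟩).trans (h4 ⟨x, hx'⟩).symm)
    funext w
    have := h11 w b0
    rw [h5] at this
    simp only [χ, y'] at this
    rw [dif_neg (by simp [mem_B0, ((hW0 w).1 w.2).2]), dif_pos w.2] at this
    exact this)
  have h1 : ∀ b : T.B0 b0, ∃ i, i ≠ ρ b ∧ T.τ i b = e b := by
    intro b
    by_contra hn
    apply he b
    simp only [M, Matrix.of_apply]
    rw [if_neg fun h => hn ⟨_, f3_1 _, h⟩, if_neg fun h => hn ⟨_, f3_2 _, h⟩, sub_zero]
  choose mB h2 h3 using h1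
  let m : X → Fin 3 := fun x => if h : x ∈ T.B0 b0 then mB ⟨x, h⟩ else
    if h' : x ∈ W0 then mB (e.symm ⟨x, h'⟩) else k
  have m1 : ∀ b : T.B0 b0, m b = mB b := fun b => by simp only [m, dif_pos b.2]
  have m2 : ∀ w : W0, m w = mB (e.symm w) := fun w => by
    simp only [m]
    rw [dif_neg (by simp [mem_B0, ((hW0 w).1 w.2).2]), dif_pos w.2]
  have m3 : m b0 = k := by
    simp only [m]
    rw [dif_neg (by simp [mem_B0]), dif_neg (by simp [hW0, hb0])]
  have m4 : m (T.τ k b0) = k := by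
    simp only [m]
    rw [dif_neg (by simp [mem_B0, T.s_τ, hb0]), dif_neg (by simp [hW0])]
  refine ⟨m, fun x => ?_, m3, fun b => by rw [m1]; exact h2 b⟩
  by_cases a1 : x ∈ T.B0 b0
  · have := m1 ⟨x, a1⟩
    simp only at this
    rw [this, h3 ⟨x, a1⟩, m2, e.symm_apply_apply]
  by_cases a2 : x ∈ W0
  · have := m2 ⟨x, a2⟩
    simp only at this
    have h4 := h3 (e.symm ⟨x, a2⟩)
    rw [e.apply_symm_apply] at h4
    simp only at h4
    rw [this]
    nth_rewrite 2 [← h4]
    rw [T.τ_τ, m1]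
  cases hs : T.s x
  · obtain rfl : x = T.τ k b0 := by simpa [hW0, hs] using a2
    rw [m4, T.τ_τ, m3]
  · obtain rfl : x = b0 := by simpa [mem_B0, hs] using a1
    rw [m3, m4]

theorem good_base (hI : T.Irr) (b0 : X) (hb0 : T.s b0 = true) (k : Fin 3) :
    ∃ m, T.Good b0 k m := by
  classical
  obtain ⟨ρ, hρ, hns⟩ := T.exists_nonsing hI b0 hb0
  obtain ⟨m, m1, m2, m3⟩ := T.exists_match b0 hb0 k ρ hns
  refine ⟨m, m1, m2, ?_⟩
  let C : Finset V := univ.filter fun v => ∀ g : V → Prop,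
    (∀ x, g (T.vtx x (m x + 1)) ↔ g (T.vtx x (m x + 2))) → (∀ j, g (T.vtx b0 j)) → g v
  have hC : ∀ v, v ∈ C ↔ ∀ g : V → Prop,
    (∀ x, g (T.vtx x (m x + 1)) ↔ g (T.vtx x (m x + 2))) → (∀ j, g (T.vtx b0 j)) → g v := by
    simp [C]
  have c1 : ∀ x, T.vtx x (m x + 1) ∈ C ↔ T.vtx x (m x + 2) ∈ C := by
    intro x
    rw [hC, hC]
    exact ⟨fun h g h1 h2 => (h1 x).1 (h g h1 h2), fun h g h1 h2 => (h1 x).2 (h g h1 h2)⟩
  have c2 : ∀ j, T.vtx b0 j ∈ C := fun j => (hC _).2 fun g _ h => h j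
  intro g g1 g2 v
  refine (hC v).1 ?_ g g1 g2
  by_contra hv
  obtain ⟨x0, hx0⟩ := T.surj v
  let S : Finset X := univ.filter fun x => ∀ j, T.vtx x j ∈ C
  have key := T.ineq (T.PZ C) (fun x i h => T.PZ_τ.2 h) S x0
    (by simp only [S, mem_filter, mem_univ, true_and]; exact fun h => hv (hx0 ▸ h _))
    (by
      intro x hx i
      simp only [S, mem_filter, mem_univ, true_and] at hx
      exact T.mem_PZ.2 ⟨hx _, hx _⟩) C (T.vtx b0 0) (c2 0) (fun x i h => T.mem_PZ.1 h) (by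
      intro g hg h0 v hv
      refine ((hC v).1 hv (fun v => v ∈ C ∧ g v = 0) (fun x => ?_) fun j => ⟨c2 j, ?_⟩).2
      · constructor
        · rintro ⟨h1, h2⟩
          exact ⟨(c1 x).1 h1, by rw [hg x _ (T.mem_PZ.2 ⟨h1, (c1 x).1 h1⟩), h2]⟩
        · rintro ⟨h1, h2⟩
          exact ⟨(c1 x).2 h1, by rw [← hg x _ (T.mem_PZ.2 ⟨(c1 x).2 h1, h1⟩), h2]⟩
      · rw [three_eq (fun j => g (T.vtx b0 j))
          (fun i => hg b0 i (T.mem_PZ.2 ⟨c2 _, c2 _⟩)) j 0, h0])
  let P' : Finset (X × Fin 3) := univ.filter fun p => p.2 = m p.1 ∧ T.vtx p.1 (p.2 + 1) ∈ C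
  have p1 : (T.PZ C).card = P'.card + 2 * S.card := by
    have e1 := card_filter_prod (T.PZ C) univ
    have e2 := card_filter_prod P' univ
    simp only [mem_univ, Finset.filter_true] at e1 e2
    rw [e1, e2, Finset.card_filter, Finset.mul_sum, ← Finset.sum_add_distrib]
    refine Finset.sum_congr rfl fun x _ => ?_
    have h1 := c1 x
    simp only [P', mem_PZ, mem_filter, mem_univ, true_and, Fin.sum_univ_three, Fin.forall_fin_succ]
    generalize m x = i at h1 ⊢
    by_cases a0 : T.vtx x 0 ∈ C <;> by_cases a1 : T.vtx x 1 ∈ C <;> by_cases a2 : T.vtx x 2 ∈ C <;>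
      fin_cases i <;> simp [a0, a1, a2] at h1 ⊢
  have p2 := T.card_sym P' (by
    intro x i h
    simp only [P', mem_filter, mem_univ, true_and] at h ⊢
    obtain ⟨rfl, h⟩ := h
    rw [T.vtx1]
    exact ⟨(m1 x).symm, h⟩)
  have p3 : (P'.filter fun p => T.s p.1 = true).card ≤ (C \ T.Rt b0).card + 1 := by
    let A : Finset (T.B0 b0) := univ.filter fun b => T.vtx b (ρ b) ∈ C
    have a1 : A.card ≤ (C \ T.Rt b0).card := by
      apply Finset.card_le_card_of_injOn (fun b : T.B0 b0 => T.vtx b (ρ b))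
      · intro b hb
        simp only [A, coe_filter, mem_univ, true_and, Set.mem_ofPred_eq] at hb
        simp only [coe_sdiff, Set.mem_sdiff, mem_coe]
        exact ⟨hb, hρ.2 b⟩
      · exact hρ.1.injOn
    have a2 : (P'.filter fun p => T.s p.1 = true) ⊆
        insert (b0, m b0) (A.image fun b : T.B0 b0 => (b.1, m b)) := by
      rintro ⟨x, i⟩ h
      simp only [P', mem_filter, mem_univ, true_and] at h
      obtain ⟨⟨rfl, h⟩, hs⟩ := h
      by_cases hx : x = b0
      · simp [hx]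
      · have hx' : x ∈ T.B0 b0 := T.mem_B0.2 ⟨hx, hs⟩
        refine Finset.mem_insert_of_mem (Finset.mem_image.2 ⟨⟨x, hx'⟩, ?_, rfl⟩)
        simp only [A, mem_filter, mem_univ, true_and]
        rcases f3_cases (m x) (ρ ⟨x, hx'⟩) with h1 | h1 | h1
        · exact (m3 ⟨x, hx'⟩ h1.symm).elim
        · rwa [h1]
        · rw [h1]; exact (c1 x).1 h
    have a3 := Finset.card_le_card a2
    have a4 := Finset.card_insert_le (b0, m b0) (A.image fun b : T.B0 b0 => (b.1, m b))
    have a5 := Finset.card_image_le (s := A) (f := fun b : T.B0 b0 => (b.1, m b))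
    omega
  have p4 : (C \ T.Rt b0).card + 3 = C.card := by
    rw [← T.card_Rt b0]
    apply Finset.card_sdiff_add_card_eq_card
    intro v hv
    obtain ⟨j, rfl⟩ := T.mem_Rt.1 hv
    exact c2 j
  omega

theorem good_irr (hI : T.Irr) (x0 : X) (k : Fin 3) : ∃ m, T.Good x0 k m := by
  cases hs : T.s x0
  · exact T.flip.good_base hI x0 (by simp [flip, hs]) k
  · exact T.good_base hI x0 hs k

end Gem

end Vale.Agent.P039
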