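import Mathlib
import Vale.Agent.P039.Match

open Finset

set_option linter.unusedSectionVars false

namespace Vale.Agent.P039

variable {X V : Type} [Fintype X] [Fintype V] [DecidableEq X] [DecidableEq V]

namespace Gem

variable (T : Gem X V)

structure Cut3 (S : Finset X) where
  xs : Fin 3 → X
  c : Bool
  tv : Fin 3 → V
  mem : ∀ i, xs i ∈ S
  out : ∀ i, T.τ i (xs i) ∉ S
  uniq : ∀ i x, x ∈ S → T.τ i x ∉ S → x = xs i
  col : ∀ i, T.s (xs i) = c
  vt : ∀ i j, j ≠ i → T.vtx (xs i) j = tv j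
  card : (cut T.τ S).card = 3

theorem exists_cut3 (S : Finset X) (h : (cut T.τ S).card = 3) : Nonempty (T.Cut3 S) := by
  let F : Fin 3 → Finset X := fun i => S.filter fun x => T.τ i x ∉ S
  have h1 : (F 0).card + (F 1).card + (F 2).card = 3 := by
    refine Eq.trans ?_ h
    rw [← Fin.sum_univ_three fun i => (F i).card, cut, Finset.card_filter,
      Fintype.sum_prod_type_right]
    refine Finset.sum_congr rfl fun i _ => ?_
    rw [← Finset.card_filter]
    congr 1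
    ext x
    simp [F]
  have h2 : ∀ A : Finset X, (∑ x ∈ A, T.sg ℤ x) % 2 = (A.card : ℤ) % 2 := by
    intro A
    rw [Finset.card_eq_sum_ones, Finset.sum_int_mod]
    push_cast
    rw [Finset.sum_int_mod (f := fun _ => (1 : ℤ))]
    congr 1
    refine Finset.sum_congr rfl fun x _ => ?_
    unfold sg
    split_ifs <;> rfl
  have h3 : ∀ i, (∑ x ∈ S, T.sg ℤ x) % 2 = ((F i).card : ℤ) % 2 := fun i => by
    rw [T.sum_sg S i, h2]
  have h4 : ∀ i, (F i).card = 1 := by
    have a0 := h3 0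
    have a1 := h3 1
    have a2 := h3 2
    intro i
    fin_cases i <;> simp <;> omega
  choose xs hxs using fun i => Finset.card_eq_one.1 (h4 i)
  have h5 : ∀ i x, (x ∈ S ∧ T.τ i x ∉ S) ↔ x = xs i := by
    intro i x
    rw [← Finset.mem_singleton, ← hxs]
    simp [F]
  have h6 : ∀ i, ∑ x ∈ S, T.sg ℤ x = T.sg ℤ (xs i) := fun i => by
    rw [T.sum_sg S i]
    change ∑ x ∈ F i, _ = _
    rw [hxs, Finset.sum_singleton]
  have h7 : ∀ j, T.vtx (xs (j + 2)) j = T.vtx (xs (j + 1)) j := by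
    intro j
    let A := S.filter fun x => T.vtx x j = T.vtx (xs (j + 1)) j
    have a1 : ∀ i, j ≠ i → ∑ x ∈ A, T.sg ℤ x = if xs i ∈ A then T.sg ℤ (xs i) else 0 := by
      intro i hi
      rw [T.sum_sg A i, ← Finset.sum_ite_eq' A (xs i), Finset.sum_filter]
      refine Finset.sum_congr rfl fun x hx => ?_
      simp only [A, mem_filter] at hx
      simp only [A, mem_filter, T.vtx_τ _ _ _ hi, hx.2, and_true, ← h5, hx.1, true_and]
    have a2 := a1 _ (f3_1 j).symm
    rw [a1 _ (f3_2 j).symm, if_pos (show xs (j + 1) ∈ A by simp [A, ((h5 _ _).2 rfl).1])] at a2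
    by_contra hn
    rw [if_neg (show xs (j + 2) ∉ A from fun h => hn (Finset.mem_filter.1 h).2)] at a2
    unfold sg at a2
    split_ifs at a2 <;> omega
  refine ⟨⟨xs, T.s (xs 0), fun j => T.vtx (xs (j + 1)) j, fun i => ((h5 _ _).2 rfl).1,
    fun i => ((h5 _ _).2 rfl).2, fun i x a b => (h5 i x).1 ⟨a, b⟩, fun i => ?_, fun i j hj => ?_, h⟩⟩
  · have := (h6 i).symm.trans (h6 0)
    unfold sg at this
    cases a : T.s (xs i) <;> cases b : T.s (xs 0) <;> simp [a, b] at this ⊢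
  · rcases f3_cases j i with a | a | a
    · exact (hj a.symm).elim
    · rw [a]
    · rw [a, h7]

variable {T} {S : Finset X}

def Cut3.compl (h : T.Cut3 S) : T.Cut3 Sᶜ where
  xs i := T.τ i (h.xs i)
  c := !h.c
  tv := h.tv
  mem i := by simpa using h.out i
  out i := by simpa [T.τ_τ] using h.mem i
  uniq i x a b := by
    rw [← h.uniq i (T.τ i x) (by simpa using b) (by simpa [T.τ_τ] using a), T.τ_τ]
  col i := by rw [T.s_τ, h.col]
  vt i j hj := by rw [T.vtx_τ _ _ _ hj, h.vt i j hj]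
  card := by rw [T.cut_compl, h.card]

lemma Cut3.tv_mem (h : T.Cut3 S) (j : Fin 3) : h.tv j ∈ T.VD S := by
  rw [← h.vt (j + 1) j (f3_1 j).symm]
  exact T.vtx_mem_VD (h.mem _) _

lemma Cut3.col_tv (h : T.Cut3 S) (j : Fin 3) : T.col (h.tv j) = j := by
  rw [← h.vt (j + 1) j (f3_1 j).symm, T.col_vtx]

lemma Cut3.euler (h : T.Cut3 S) : 2 * (T.VD S).card = S.card + 5 := by
  have := (T.disc S ⟨_, h.mem 0⟩ ⟨_, h.compl.mem 0⟩ (by
    intro g hg
    have h1 := three_eq (fun j => g (h.tv j)) fun i => by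
      have := hg _ i (h.mem i) (h.out i)
      rwa [h.vt _ _ (f3_1 i), h.vt _ _ (f3_2 i)] at this
    intro x i y j a b c d
    rw [h.uniq i x a b, h.uniq j y c d, h.vt _ _ (f3_1 i), h.vt _ _ (f3_1 j)]
    exact h1 _ _) (univ.image h.tv) (by
      intro v hv
      obtain ⟨j, -, rfl⟩ := Finset.mem_image.1 hv
      exact Finset.mem_inter.2 ⟨h.tv_mem j, h.compl.tv_mem j⟩) (by
      rw [h.card, Finset.card_image_of_injective]
      · simp
      · intro i j hij
        rw [← h.col_tv i, hij, h.col_tv])).1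
  rw [h.card] at this
  omega

def Cut3.τ' (h : T.Cut3 S) (i : Fin 3) : Option S → Option S
  | none => some ⟨h.xs i, h.mem i⟩
  | some x => if hx : T.τ i x ∈ S then some ⟨_, hx⟩ else none

def Cut3.vtx' (h : T.Cut3 S) : Option S → Fin 3 → T.VD S
  | none => fun j => ⟨h.tv j, h.tv_mem j⟩
  | some x => fun j => ⟨T.vtx x j, T.vtx_mem_VD x.2 j⟩

lemma Cut3.τ_τ' (h : T.Cut3 S) (i : Fin 3) (x : Option S) : h.τ' i (h.τ' i x) = x := by
  rcases x with _ | x
  · simp only [Cut3.τ', dif_neg (h.out i)]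
  · by_cases hx : T.τ i x ∈ S
    · simp only [Cut3.τ', dif_pos hx, T.τ_τ, dif_pos x.2]
    · simp only [Cut3.τ', dif_neg hx, ← h.uniq i x x.2 hx]

lemma Cut3.conn_aux (h : T.Cut3 S) (A : Finset (Option S)) (h0 : none ∉ A) (h1 : A.Nonempty) :
    3 ≤ (cut h.τ' A).card := by
  let A' : Finset X := univ.filter fun x => ∃ hx : x ∈ S, some ⟨x, hx⟩ ∈ A
  refine le_trans (T.conn3 A' ?_ ⟨T.τ 0 (h.xs 0), by simp [A', h.out]⟩) ?_
  · obtain ⟨_ | x, hx⟩ := h1
    · exact (h0 hx).elim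
    · exact ⟨x, by simp [A', hx]⟩
  · apply Finset.card_le_card_of_injOn
      (fun p => (if hx : p.1 ∈ S then some ⟨p.1, hx⟩ else none, p.2))
    · rintro ⟨x, i⟩ hp
      simp only [cut, A', coe_filter, mem_univ, true_and, Set.mem_ofPred_eq, mem_filter] at hp ⊢
      obtain ⟨⟨hx, a⟩, b⟩ := hp
      rw [dif_pos hx]
      refine ⟨a, ?_⟩
      simp only [Cut3.τ']
      split_ifs with hh
      · exact fun c => b ⟨hh, c⟩
      · exact h0
    · rintro ⟨x, i⟩ hp ⟨y, j⟩ hq e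
      simp only [cut, A', coe_filter, mem_univ, true_and, Set.mem_ofPred_eq, mem_filter] at hp hq
      obtain ⟨⟨hx, -⟩, -⟩ := hp
      obtain ⟨⟨hy, -⟩, -⟩ := hq
      simpa [hx, hy] using e

def Cut3.contract (h : T.Cut3 S) : Gem (Option S) (T.VD S) where
  τ := h.τ'
  s x := x.elim (!h.c) fun x => T.s x
  vtx := h.vtx'
  col v := T.col v
  τ_τ := h.τ_τ'
  s_τ i x := by
    rcases x with _ | x
    · simp [Cut3.τ', h.col]
    · by_cases hx : T.τ i x ∈ S
      · simp [Cut3.τ', dif_pos hx, T.s_τ]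
      · simp [Cut3.τ', dif_neg hx, ← h.col i, ← h.uniq i x x.2 hx]
  vtx_τ i j x hj := by
    rcases x with _ | x
    · simp [Cut3.τ', Cut3.vtx', h.vt i j hj]
    · by_cases hx : T.τ i x ∈ S
      · simp [Cut3.τ', Cut3.vtx', dif_pos hx, T.vtx_τ _ _ _ hj]
      · simp [Cut3.τ', Cut3.vtx', dif_neg hx, ← h.vt i j hj, ← h.uniq i x x.2 hx]
  col_vtx x j := by
    rcases x with _ | x
    · exact h.col_tv j
    · exact T.col_vtx _ _
  surj v := by
    obtain ⟨x, hx, j, hj⟩ := T.mem_VD.1 v.2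
    refine ⟨some ⟨x, hx⟩, Subtype.ext ?_⟩
    simp only [Cut3.vtx', ← hj, T.col_vtx]
  euler := by
    have := h.euler
    simp only [Fintype.card_coe, Fintype.card_option]
    omega
  conn3 A a b := by
    by_cases h0 : none ∈ A
    · refine le_trans (h.conn_aux Aᶜ (by simpa using h0) b) (le_of_eq ?_)
      apply Finset.card_bij' (fun p _ => (h.τ' p.2 p.1, p.2)) (fun p _ => (h.τ' p.2 p.1, p.2))
      · intro p hp; simp [cut, h.τ_τ'] at hp ⊢; exact ⟨hp.2, hp.1⟩
      · intro p hp; simp [cut, h.τ_τ'] at hp ⊢; exact ⟨hp.2, hp.1⟩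
      · intro p _; simp [h.τ_τ']
      · intro p _; simp [h.τ_τ']
    · exact h.conn_aux A h0 a

lemma Cut3.good_aux (h : T.Cut3 S) {r : Option S} {k : Fin 3} {m' : Option S → Fin 3}
    (hG : h.contract.Good r k m') (m : X → Fin 3) (hm : ∀ x : S, m x = m' (some x)) :
    (∀ x ∈ S, T.τ (m x) x ∈ S → m (T.τ (m x) x) = m x) ∧
    (∀ x ∈ S, T.τ (m x) x ∉ S → m x = m' none) ∧ m (h.xs (m' none)) = m' none ∧
    ∀ g : V → Prop, (∀ x, g (T.vtx x (m x + 1)) ↔ g (T.vtx x (m x + 2))) →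
      (∀ j, g (h.vtx' r j)) → ∀ v ∈ T.VD S, g v := by
  obtain ⟨g1, -, g3⟩ := hG
  have a3 : m (h.xs (m' none)) = m' none := (hm ⟨_, h.mem _⟩).trans (g1 none)
  refine ⟨fun x hx a => ?_, fun x hx a => ?_, a3, fun g a b v hv => ?_⟩
  · have := g1 (some ⟨x, hx⟩)
    rw [← hm] at this
    simp only [Cut3.contract, Cut3.τ', dif_pos a] at this
    exact (hm ⟨_, a⟩).trans this
  · have := g1 (some ⟨x, hx⟩)
    rw [← hm] at this
    simp only [Cut3.contract, Cut3.τ', dif_neg a] at this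
    exact this.symm
  · refine g3 (fun v => g v) ?_ b ⟨v, hv⟩
    rintro (_ | x)
    · have := a (h.xs (m' none))
      rwa [a3, h.vt _ _ (f3_1 _), h.vt _ _ (f3_2 _)] at this
    · rw [← hm]
      exact a x

lemma Cut3.glue (h : T.Cut3 S) (x0 : S) (k : Fin 3)
    (h1 : ∀ r k, ∃ m, h.contract.Good r k m) (h2 : ∀ r k, ∃ m, h.compl.contract.Good r k m) :
    ∃ m, T.Good x0 k m := by
  obtain ⟨m1, g1⟩ := h1 (some x0) k
  obtain ⟨m2, g2⟩ := h2 none (m1 none)
  let m : X → Fin 3 := fun x =>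
    if hx : x ∈ S then m1 (some ⟨x, hx⟩) else m2 (some ⟨x, Finset.mem_compl.2 hx⟩)
  have e1 : ∀ x : S, m x = m1 (some x) := fun x => by simp only [m, dif_pos x.2]
  have e2 : ∀ x : (Sᶜ : Finset X), m x = m2 (some x) := fun x => by
    simp only [m, dif_neg (Finset.mem_compl.1 x.2)]
  obtain ⟨a1, a2, a3, a4⟩ := h.good_aux g1 m e1
  obtain ⟨b1, b2, b3, b4⟩ := h.compl.good_aux g2 m e2
  rw [g2.2.1] at b2 b3
  refine ⟨m, fun x => ?_, (e1 x0).trans g1.2.1, fun g c1 c2 v => ?_⟩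
  · by_cases hx : x ∈ S <;> by_cases hy : T.τ (m x) x ∈ S
    · exact a1 x hx hy
    · have := a2 x hx hy
      rw [this] at hy ⊢
      rw [h.uniq _ x hx hy]
      exact b3
    · have := b2 x (by simpa using hx) (by simpa using hy)
      rw [this] at hy ⊢
      rw [h.uniq _ _ hy (by rwa [T.τ_τ]), a3]
    · exact b1 x (by simpa using hx) (by simpa using hy)
  · have d1 := a4 g c1 c2
    have d2 := b4 g c1 fun j => d1 _ (h.tv_mem j)
    obtain ⟨x, hx⟩ := T.surj v
    rw [← hx]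
    by_cases hS : x ∈ S
    · exact d1 _ (T.vtx_mem_VD hS _)
    · exact d2 _ (T.vtx_mem_VD (by simpa using hS) _)

end Gem

theorem good_all (n : ℕ) : ∀ (X V : Type) [Fintype X] [Fintype V] [DecidableEq X] [DecidableEq V]
    (T : Gem X V), Fintype.card X = n → ∀ x0 k, ∃ m, T.Good x0 k m := by
  induction n using Nat.strong_induction_on with
  | _ n ih =>
    intro X V _ _ _ _ T hn x0 k
    by_cases hI : T.Irr
    · exact T.good_irr hI x0 k
    simp only [Gem.Irr, not_forall, not_or] at hI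
    obtain ⟨S, h1, h2, h3⟩ := hI
    obtain ⟨h⟩ := T.exists_cut3 S h1
    have c1 := Finset.card_pos.2 ⟨_, h.mem 0⟩
    have c2 := Finset.card_pos.2 ⟨_, h.compl.mem 0⟩
    have c3 := Finset.card_add_card_compl S
    have c4 := Finset.card_add_card_compl Sᶜ
    by_cases hx : x0 ∈ S
    · exact h.glue ⟨x0, hx⟩ k (ih _ (by simp; omega) _ _ _ rfl) (ih _ (by simp; omega) _ _ _ rfl)
    · exact h.compl.glue ⟨x0, by simpa using hx⟩ k (ih _ (by simp; omega) _ _ _ rfl)
        (ih _ (by simp only [Fintype.card_option, Fintype.card_coe]; omega) _ _ _ rfl)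

end Vale.Agent.P039
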