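import Mathlib
import Vale.Agent.P039.Induct

open Finset

set_option linter.unusedSectionVars false

namespace Vale.Agent.P039

variable {X V : Type} [Fintype X] [Fintype V] [DecidableEq X] [DecidableEq V]

namespace Gem

variable (T : Gem X V)

lemma match_iff {m : X → Fin 3} (hm : ∀ x, m (T.τ (m x) x) = m x) (x : X) (i : Fin 3) :
    i = m (T.τ i x) ↔ i = m x := by
  constructor
  · intro h
    have := hm (T.τ i x)
    rw [← h, T.τ_τ] at this
    exact this.symm
  · rintro rfl
    exact (hm x).symm

theorem factor_conn_aux {x0 : X} {k : Fin 3} {m : X → Fin 3} (hG : T.Good x0 k m) (f : X → Prop)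
    (hf : ∀ x i, i ≠ m x → (f (T.τ i x) ↔ f x)) (h0 : ¬ f x0) (x : X) : ¬ f x := by
  classical
  let z : X → Fin 3 → ZMod 2 := fun x i => if f x ∧ i ≠ m x then 1 else 0
  have hz : ∀ i x, z (T.τ i x) i = z x i := by
    intro i x
    simp only [z, ne_eq, T.match_iff hG.1]
    by_cases h : i = m x
    · simp [h]
    · simp [h, hf x i h]
  obtain ⟨g, hg⟩ := T.exact0 z (by
    intro χ
    rw [T.div_formula z hz]
    apply Finset.sum_eq_zero
    intro x _
    rw [f3_sum _ (m x)]
    by_cases h : f x
    · simp only [z, h, true_and, ne_eq, not_true, if_false, f3_1, f3_2, not_false_eq_true, if_true]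
      have : (0 + 1 + 1 : ZMod 2) = 0 := by decide
      rw [this, mul_zero]
    · simp [z, h])
  have hg' : ∀ x i, z x i = g (T.vtx x (i + 2)) - g (T.vtx x (i + 1)) := by
    intro x i
    cases hs : T.s x
    · have := hg (T.τ i x) i (by rw [T.s_τ, hs]; rfl)
      rwa [hz, T.vtx1, T.vtx2] at this
    · exact hg x i hs
  have h1 := hG.2.2 (fun v => g v = g (T.vtx x0 0)) (by
    intro x
    have := hg' x (m x)
    simp only [z, ne_eq, not_true, and_false, if_false] at this
    rw [sub_eq_zero.1 this.symm]) (by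
    intro j
    refine three_eq (fun j => g (T.vtx x0 j)) (fun i => ?_) j 0
    have := hg' x0 i
    simp only [z, h0, false_and, if_false] at this
    exact sub_eq_zero.1 this.symm)
  intro hx
  have := hg' x (m x + 1)
  rw [h1, h1 (T.vtx x (m x + 1 + 1)), sub_self] at this
  simp [z, hx] at this

theorem ham (G : SimpleGraph X) (hadj : ∀ i x, G.Adj x (T.τ i x))
    (hinj : ∀ i j x, T.τ i x = T.τ j x → i = j) : G.IsHamiltonian := by
  classical
  obtain ⟨x0⟩ := T.nonemptyX
  obtain ⟨m, hG⟩ := good_all _ X V T rfl x0 0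
  let H : SimpleGraph X :=
    { Adj := fun x y => ∃ i, i ≠ m x ∧ T.τ i x = y
      symm := ⟨by
        rintro x y ⟨i, hi, rfl⟩
        exact ⟨i, fun h => hi ((T.match_iff hG.1 x i).1 h), T.τ_τ i x⟩⟩
      loopless := ⟨by
        rintro x ⟨i, -, h⟩
        exact T.τ_ne i x h⟩ }
  have hle : H ≤ G := by
    rintro x y ⟨i, -, rfl⟩
    exact hadj i x
  apply SimpleGraph.IsHamiltonian.mono hle
  have hc : H.IsCycles := by
    intro x _
    have : H.neighborSet x = {T.τ (m x + 1) x, T.τ (m x + 2) x} := by
      ext y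
      simp only [SimpleGraph.mem_neighborSet, Set.mem_insert_iff, Set.mem_singleton_iff]
      constructor
      · rintro ⟨i, hi, rfl⟩
        rcases f3_cases (m x) i with h | h | h
        · exact (hi h).elim
        · left; rw [h]
        · right; rw [h]
      · rintro (rfl | rfl)
        · exact ⟨_, f3_1 _, rfl⟩
        · exact ⟨_, f3_2 _, rfl⟩
    rw [this, Set.ncard_pair fun h => f3_12 _ (hinj _ _ _ h)]
  have hr : ∀ x, H.Reachable x0 x := by
    intro x
    refine not_not.1 (T.factor_conn_aux hG (fun x => ¬ H.Reachable x0 x) ?_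
      (not_not.2 (SimpleGraph.Reachable.refl _)) x)
    intro x i hi
    have : H.Adj x (T.τ i x) := ⟨i, hi, rfl⟩
    exact not_congr ⟨fun h => h.trans this.symm.reachable, fun h => h.trans this.reachable⟩
  obtain ⟨p, hp, hp'⟩ := hc.exists_cycle_toSubgraph_verts_eq_connectedComponentSupp
    (c := H.connectedComponentMk x0) (v := x0) (by simp) ⟨_, ⟨_, f3_1 _, rfl⟩⟩
  refine fun _ => ⟨x0, p, hp, hp.isPath_tail.isHamiltonian_of_mem fun w => ?_⟩
  have h1 : w ∈ p.support := by
    rw [← p.mem_verts_toSubgraph, hp']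
    simpa using (hr w).symm
  rw [← p.cons_support_tail hp.not_nil, List.mem_cons] at h1
  rcases h1 with rfl | h1
  · exact SimpleGraph.Walk.end_mem_support _
  · exact h1

end Gem

end Vale.Agent.P039
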